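import Mathlib

namespace Vale.Agent.P065

def det3 (p q r : ℝ × ℝ) : ℝ := (q.1 - p.1) * (r.2 - p.2) - (q.2 - p.2) * (r.1 - p.1)

def NoThreeCollinear (P : Finset (ℝ × ℝ)) : Prop :=
  ∀ p ∈ P, ∀ q ∈ P, ∀ r ∈ P, p ≠ q → p ≠ r → q ≠ r →
    ¬ Collinear ℝ ({p, q, r} : Set (ℝ × ℝ))

def IsHalvingPair (P : Finset (ℝ × ℝ)) (p q : ℝ × ℝ) : Prop :=
  p ∈ P ∧ q ∈ P ∧ p ≠ q ∧
    2 * (P.filter (fun r => 0 < det3 p q r)).card + 2 = P.card ∧
    2 * (P.filter (fun r => det3 p q r < 0)).card + 2 = P.card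

open Classical in
noncomputable def halvingCount (P : Finset (ℝ × ℝ)) : ℕ :=
  ((P.powersetCard 2).filter (fun e => ∃ p q, e = {p, q} ∧ IsHalvingPair P p q)).card

open Classical in
noncomputable def halvingDegree (P : Finset (ℝ × ℝ)) (a : ℝ × ℝ) : ℕ :=
  (P.filter (fun q => IsHalvingPair P a q)).card

end Vale.Agent.P065
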