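import Mathlib

namespace Vale.Agent.P065

open Finset

variable {α : Type*} [DecidableEq α]

def eta (X Y : α → ℝ) (t : ℝ) (z : α) : ℝ := Y z - t * X z

noncomputable def slope (X Y : α → ℝ) (p q : α) : ℝ := (Y q - Y p) / (X q - X p)

def CutPlus (X Y : α → ℝ) (P : Finset α) (t : ℝ) (S : Finset α) : Prop :=
  S ⊆ P ∧ ∀ z ∈ S, ∀ w ∈ P, w ∉ S →
    eta X Y t z < eta X Y t w ∨ (eta X Y t z = eta X Y t w ∧ X w < X z)

def CutMinus (X Y : α → ℝ) (P : Finset α) (t : ℝ) (S : Finset α) : Prop :=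
  S ⊆ P ∧ ∀ z ∈ S, ∀ w ∈ P, w ∉ S →
    eta X Y t z < eta X Y t w ∨ (eta X Y t z = eta X Y t w ∧ X z < X w)

lemma eta_slope {X Y : α → ℝ} {p q : α} (h : X p < X q) :
    eta X Y (slope X Y p q) q = eta X Y (slope X Y p q) p := by
  unfold eta slope
  have : X q - X p ≠ 0 := (sub_pos.mpr h).ne'
  field_simp
  ring

lemma wedge {X Y : α → ℝ} {P : Finset α} {t t' : ℝ} (htt : t < t') {S S' : Finset α}
    (h : CutPlus X Y P t S) (h' : CutMinus X Y P t' S') {z w : α}
    (hz : z ∈ S) (hz' : z ∉ S') (hw : w ∈ S') (hw' : w ∉ S) :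
    X z < X w ∧ t < slope X Y z w ∧ slope X Y z w < t' := by
  have h1 := h.2 z hz w (h'.1 hw) hw'
  have h2 := h'.2 w hw z (h.1 hz) hz'
  unfold eta at h1 h2
  have hb : X z < X w := by
    rcases h1 with h1 | ⟨h1, h1'⟩ <;> rcases h2 with h2 | ⟨h2, h2'⟩ <;> nlinarith
  have hpos : 0 < X w - X z := sub_pos.mpr hb
  refine ⟨hb, ?_, ?_⟩
  · unfold slope
    rw [lt_div_iff₀ hpos]
    rcases h1 with h1 | ⟨h1, h1'⟩
    · nlinarith
    · linarith
  · unfold slope
    rw [div_lt_iff₀ hpos]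
    rcases h2 with h2 | ⟨h2, h2'⟩
    · nlinarith
    · linarith

lemma cutMinus_unique {X Y : α → ℝ} {P : Finset α} {t : ℝ} {S S' : Finset α}
    (h : CutMinus X Y P t S) (h' : CutMinus X Y P t S') (hc : S.card = S'.card) : S = S' := by
  by_contra hne
  have h1 : ¬ S ⊆ S' := fun hs => hne (Finset.eq_of_subset_of_card_le hs hc.ge)
  have h2 : ¬ S' ⊆ S := fun hs => hne (Finset.eq_of_subset_of_card_le hs hc.le).symm
  obtain ⟨z, hz, hz'⟩ := Finset.not_subset.mp h1
  obtain ⟨w, hw, hw'⟩ := Finset.not_subset.mp h2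
  have a1 := h.2 z hz w (h'.1 hw) hw'
  have a2 := h'.2 w hw z (h.1 hz) hz'
  rcases a1 with a1 | ⟨a1, a1'⟩ <;> rcases a2 with a2 | ⟨a2, a2'⟩ <;> linarith

lemma cutPlus_unique {X Y : α → ℝ} {P : Finset α} {t : ℝ} {S S' : Finset α}
    (h : CutPlus X Y P t S) (h' : CutPlus X Y P t S') (hc : S.card = S'.card) : S = S' := by
  by_contra hne
  have h1 : ¬ S ⊆ S' := fun hs => hne (Finset.eq_of_subset_of_card_le hs hc.ge)
  have h2 : ¬ S' ⊆ S := fun hs => hne (Finset.eq_of_subset_of_card_le hs hc.le).symm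
  obtain ⟨z, hz, hz'⟩ := Finset.not_subset.mp h1
  obtain ⟨w, hw, hw'⟩ := Finset.not_subset.mp h2
  have a1 := h.2 z hz w (h'.1 hw) hw'
  have a2 := h'.2 w hw z (h.1 hz) hz'
  rcases a1 with a1 | ⟨a1, a1'⟩ <;> rcases a2 with a2 | ⟨a2, a2'⟩ <;> linarith

def Phi (P : Finset α) (u d : ℝ → α → ℤ) (t : ℝ) (S : Finset α) : ℤ :=
  ∑ x ∈ S, u t x + ∑ x ∈ P \ S, d t x

lemma sum_le_sum_of_cross {D1 D2 : Finset α} {b a : α → ℤ} (hc : D1.card = D2.card)
    (h : ∀ z ∈ D1, ∀ w ∈ D2, b z ≤ a w) : ∑ z ∈ D1, b z ≤ ∑ w ∈ D2, a w := by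
  rcases D1.eq_empty_or_nonempty with h1 | h1
  · subst h1
    have : D2 = ∅ := by
      rw [← Finset.card_eq_zero, ← hc]; simp
    subst this
    simp
  · obtain ⟨z0, hz0, hmax⟩ := Finset.exists_max_image D1 b h1
    calc ∑ z ∈ D1, b z ≤ D1.card • b z0 := Finset.sum_le_card_nsmul _ _ _ hmax
      _ = D2.card • b z0 := by rw [hc]
      _ ≤ ∑ w ∈ D2, a w := Finset.card_nsmul_le_sum _ _ _ (fun w hw => h z0 hz0 w hw)

lemma Phi_mono {X Y : α → ℝ} {P : Finset α} {u d : ℝ → α → ℤ}
    (hu : ∀ x, Monotone (fun t => u t x)) (hd : ∀ x, Monotone (fun t => d t x))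
    (hloc : ∀ z ∈ P, ∀ w ∈ P, X z < X w →
      u (slope X Y z w) z - d (slope X Y z w) z ≤ u (slope X Y z w) w - d (slope X Y z w) w)
    {t t' : ℝ} (htt : t < t') {S S' : Finset α}
    (h : CutPlus X Y P t S) (h' : CutMinus X Y P t' S') (hc : S.card = S'.card) :
    Phi P u d t S ≤ Phi P u d t' S' := by
  classical
  set D1 := S \ S' with hD1
  set D2 := S' \ S with hD2
  set I := S ∩ S' with hI
  set N := P \ (S ∪ S') with hN
  have hS : S = I ∪ D1 := by
    ext x; simp only [hI, hD1, mem_union, mem_inter, mem_sdiff]; tauto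
  have hS' : S' = I ∪ D2 := by
    ext x; simp only [hI, hD2, mem_union, mem_inter, mem_sdiff]; tauto
  have hPS : P \ S = N ∪ D2 := by
    ext x
    simp only [hN, hD2, mem_union, mem_sdiff]
    constructor
    · rintro ⟨h1, h2⟩
      by_cases hx : x ∈ S'
      · right; exact ⟨hx, h2⟩
      · left; exact ⟨h1, fun hh => hh.elim h2 hx⟩
    · rintro (⟨h1, h2⟩ | ⟨h1, h2⟩)
      · exact ⟨h1, fun hh => h2 (Or.inl hh)⟩
      · exact ⟨h'.1 h1, h2⟩
  have hPS' : P \ S' = N ∪ D1 := by
    ext x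
    simp only [hN, hD1, mem_union, mem_sdiff]
    constructor
    · rintro ⟨h1, h2⟩
      by_cases hx : x ∈ S
      · right; exact ⟨hx, h2⟩
      · left; exact ⟨h1, fun hh => hh.elim hx h2⟩
    · rintro (⟨h1, h2⟩ | ⟨h1, h2⟩)
      · exact ⟨h1, fun hh => h2 (Or.inr hh)⟩
      · exact ⟨h.1 h1, h2⟩
  have dI1 : Disjoint I D1 := by
    rw [Finset.disjoint_left]; intro x hx hx'
    simp only [hI, hD1, mem_inter, mem_sdiff] at hx hx'; exact hx'.2 hx.2
  have dI2 : Disjoint I D2 := by
    rw [Finset.disjoint_left]; intro x hx hx'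
    simp only [hI, hD2, mem_inter, mem_sdiff] at hx hx'; exact hx'.2 hx.1
  have dN1 : Disjoint N D1 := by
    rw [Finset.disjoint_left]; intro x hx hx'
    simp only [hN, hD1, mem_union, mem_sdiff] at hx hx'; exact hx.2 (Or.inl hx'.1)
  have dN2 : Disjoint N D2 := by
    rw [Finset.disjoint_left]; intro x hx hx'
    simp only [hN, hD2, mem_union, mem_sdiff] at hx hx'; exact hx.2 (Or.inr hx'.1)
  have hcD : D1.card = D2.card := by
    have e1 : S.card = I.card + D1.card := by rw [hS]; exact Finset.card_union_of_disjoint dI1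
    have e2 : S'.card = I.card + D2.card := by rw [hS']; exact Finset.card_union_of_disjoint dI2
    omega
  have key : ∑ z ∈ D1, (u t z - d t' z) ≤ ∑ w ∈ D2, (u t' w - d t w) := by
    apply sum_le_sum_of_cross hcD
    intro z hz w hw
    simp only [hD1, hD2, mem_sdiff] at hz hw
    obtain ⟨hx, hs1, hs2⟩ := wedge htt h h' hz.1 hz.2 hw.1 hw.2
    have l := hloc z (h.1 hz.1) w (h'.1 hw.1) hx
    have m1 := hu z hs1.le
    have m2 := hd z hs2.le
    have m3 := hu w hs2.le
    have m4 := hd w hs1.le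
    simp only at m1 m2 m3 m4
    linarith
  have k1 : ∑ x ∈ I, u t x ≤ ∑ x ∈ I, u t' x := Finset.sum_le_sum (fun x _ => hu x htt.le)
  have k2 : ∑ x ∈ N, d t x ≤ ∑ x ∈ N, d t' x := Finset.sum_le_sum (fun x _ => hd x htt.le)
  unfold Phi
  rw [hPS, hPS']
  conv_lhs => rw [hS]
  conv_rhs => rw [hS']
  rw [Finset.sum_union dI1, Finset.sum_union dI2, Finset.sum_union dN1, Finset.sum_union dN2]
  rw [Finset.sum_sub_distrib, Finset.sum_sub_distrib] at key
  linarith


noncomputable def below (X Y : α → ℝ) (P : Finset α) (p q : α) : Finset α :=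
  P.filter (fun r => eta X Y (slope X Y p q) r < eta X Y (slope X Y p q) p)

structure IsEvent (X Y : α → ℝ) (P : Finset α) (m : ℕ) (p q : α) : Prop where
  hp : p ∈ P
  hq : q ∈ P
  hlt : X p < X q
  hcard : (below X Y P p q).card = m

def GP (X Y : α → ℝ) (P : Finset α) : Prop :=
  ∀ p ∈ P, ∀ q ∈ P, ∀ r ∈ P, X p < X q →
    eta X Y (slope X Y p q) r = eta X Y (slope X Y p q) p → r = p ∨ r = q

lemma not_mem_below_left {X Y : α → ℝ} {P : Finset α} {p q : α} : p ∉ below X Y P p q := by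
  simp [below]

lemma not_mem_below_right {X Y : α → ℝ} {P : Finset α} {p q : α} (h : X p < X q) :
    q ∉ below X Y P p q := by
  simp [below, eta_slope h]

lemma cutMinus_event {X Y : α → ℝ} {P : Finset α} {m : ℕ} {p q : α} (hgp : GP X Y P)
    (e : IsEvent X Y P m p q) :
    CutMinus X Y P (slope X Y p q) (insert p (below X Y P p q)) := by
  refine ⟨?_, ?_⟩
  · intro x hx
    rcases Finset.mem_insert.mp hx with rfl | hx
    · exact e.hp
    · exact (Finset.mem_filter.mp hx).1
  · intro z hz w hw hw'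
    have hwp : w ≠ p := fun hh => hw' (hh ▸ Finset.mem_insert_self _ _)
    have hwb : ¬ eta X Y (slope X Y p q) w < eta X Y (slope X Y p q) p := fun hh =>
      hw' (Finset.mem_insert_of_mem (Finset.mem_filter.mpr ⟨hw, hh⟩))
    rcases Finset.mem_insert.mp hz with rfl | hz
    · rcases lt_or_eq_of_le (not_lt.mp hwb) with h1 | h1
      · exact Or.inl h1
      · right
        refine ⟨h1, ?_⟩
        rcases hgp z e.hp q e.hq w hw e.hlt h1.symm with h2 | h2
        · exact absurd h2 hwp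
        · rw [h2]; exact e.hlt
    · left
      exact lt_of_lt_of_le (Finset.mem_filter.mp hz).2 (not_lt.mp hwb)

lemma cutPlus_event {X Y : α → ℝ} {P : Finset α} {m : ℕ} {p q : α} (hgp : GP X Y P)
    (e : IsEvent X Y P m p q) :
    CutPlus X Y P (slope X Y p q) (insert q (below X Y P p q)) := by
  refine ⟨?_, ?_⟩
  · intro x hx
    rcases Finset.mem_insert.mp hx with rfl | hx
    · exact e.hq
    · exact (Finset.mem_filter.mp hx).1
  · intro z hz w hw hw'
    have hwq : w ≠ q := fun hh => hw' (hh ▸ Finset.mem_insert_self _ _)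
    have hwb : ¬ eta X Y (slope X Y p q) w < eta X Y (slope X Y p q) p := fun hh =>
      hw' (Finset.mem_insert_of_mem (Finset.mem_filter.mpr ⟨hw, hh⟩))
    rcases Finset.mem_insert.mp hz with rfl | hz
    · rw [eta_slope e.hlt]
      rcases lt_or_eq_of_le (not_lt.mp hwb) with h1 | h1
      · exact Or.inl h1
      · right
        refine ⟨h1, ?_⟩
        rcases hgp p e.hp z e.hq w hw e.hlt h1.symm with h2 | h2
        · rw [h2]; exact e.hlt
        · exact absurd h2 hwq
    · left
      exact lt_of_lt_of_le (Finset.mem_filter.mp hz).2 (not_lt.mp hwb)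

lemma card_insert_left {X Y : α → ℝ} {P : Finset α} {m : ℕ} {p q : α}
    (e : IsEvent X Y P m p q) : (insert p (below X Y P p q)).card = m + 1 := by
  rw [Finset.card_insert_of_notMem not_mem_below_left, e.hcard]

lemma card_insert_right {X Y : α → ℝ} {P : Finset α} {m : ℕ} {p q : α}
    (e : IsEvent X Y P m p q) : (insert q (below X Y P p q)).card = m + 1 := by
  rw [Finset.card_insert_of_notMem (not_mem_below_right e.hlt), e.hcard]

lemma event_eq_of_slope_eq {X Y : α → ℝ} {P : Finset α} {m : ℕ} {p q p' q' : α}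
    (hgp : GP X Y P) (e : IsEvent X Y P m p q) (e' : IsEvent X Y P m p' q')
    (hs : slope X Y p q = slope X Y p' q') : p = p' ∧ q = q' := by
  have c1 := cutMinus_event hgp e
  have c1' := cutMinus_event hgp e'
  have c2 := cutPlus_event hgp e
  have c2' := cutPlus_event hgp e'
  rw [← hs] at c1' c2'
  have E1 := cutMinus_unique c1 c1' (by rw [card_insert_left e, card_insert_left e'])
  have E2 := cutPlus_unique c2 c2' (by rw [card_insert_right e, card_insert_right e'])
  have hpq : p ≠ q := fun h => by have := e.hlt; rw [h] at this; exact lt_irrefl _ this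
  have hpq' : p' ≠ q' := fun h => by have := e'.hlt; rw [h] at this; exact lt_irrefl _ this
  have hp1 : p ∈ insert p' (below X Y P p' q') := E1 ▸ Finset.mem_insert_self _ _
  have hp2 : p ∉ insert q' (below X Y P p' q') := by
    rw [← E2]
    intro hh
    rcases Finset.mem_insert.mp hh with h1 | h1
    · exact hpq h1
    · exact not_mem_below_left h1
  have hq1 : q ∈ insert q' (below X Y P p' q') := E2 ▸ Finset.mem_insert_self _ _
  have hq2 : q ∉ insert p' (below X Y P p' q') := by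
    rw [← E1]
    intro hh
    rcases Finset.mem_insert.mp hh with h1 | h1
    · exact hpq h1.symm
    · exact not_mem_below_right e.hlt h1
  constructor
  · rcases Finset.mem_insert.mp hp1 with h1 | h1
    · exact h1
    · exact absurd (Finset.mem_insert_of_mem h1) hp2
  · rcases Finset.mem_insert.mp hq1 with h1 | h1
    · exact h1
    · exact absurd (Finset.mem_insert_of_mem h1) hq2

lemma Phi_insert {P : Finset α} {u d : ℝ → α → ℤ} {t : ℝ} {B : Finset α} {a : α}
    (ha : a ∈ P) (haB : a ∉ B) :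
    Phi P u d t (insert a B) = Phi P u d t B + (u t a - d t a) := by
  unfold Phi
  rw [Finset.sum_insert haB]
  have : P \ B = insert a (P \ insert a B) := by
    ext x
    simp only [mem_sdiff, mem_insert]
    constructor
    · rintro ⟨h1, h2⟩
      by_cases hx : x = a
      · exact Or.inl hx
      · exact Or.inr ⟨h1, fun hh => hh.elim hx h2⟩
    · rintro (rfl | ⟨h1, h2⟩)
      · exact ⟨ha, haB⟩
      · exact ⟨h1, fun hh => h2 (Or.inr hh)⟩
  rw [this, Finset.sum_insert (by simp)]
  ring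

theorem potential_principle {X Y : α → ℝ} {P : Finset α} {m : ℕ} {u d : ℝ → α → ℤ}
    (hgp : GP X Y P)
    (hu : ∀ x, Monotone (fun t => u t x)) (hd : ∀ x, Monotone (fun t => d t x))
    (g : α → α → ℤ) (hg : ∀ z w, 0 ≤ g z w)
    (hloc : ∀ z ∈ P, ∀ w ∈ P, X z < X w →
      u (slope X Y z w) z - d (slope X Y z w) z + g z w
        ≤ u (slope X Y z w) w - d (slope X Y z w) w)
    {t0 : ℝ} {S0 : Finset α} (h0 : CutPlus X Y P t0 S0) (hc0 : S0.card = m + 1)
    (E : Finset (α × α)) :
    (∀ e ∈ E, IsEvent X Y P m e.1 e.2) → (∀ e ∈ E, t0 < slope X Y e.1 e.2) →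
    ∀ (t1 : ℝ) (S1 : Finset α), CutMinus X Y P t1 S1 → S1.card = m + 1 → t0 < t1 →
      (∀ e ∈ E, slope X Y e.1 e.2 < t1) →
      Phi P u d t0 S0 + ∑ e ∈ E, g e.1 e.2 ≤ Phi P u d t1 S1 := by
  classical
  have hloc' : ∀ z ∈ P, ∀ w ∈ P, X z < X w →
      u (slope X Y z w) z - d (slope X Y z w) z ≤ u (slope X Y z w) w - d (slope X Y z w) w := by
    intro z hz w hw hx
    have := hloc z hz w hw hx
    have := hg z w
    linarith
  refine Finset.induction_on_max_value (fun e : α × α => slope X Y e.1 e.2) E ?_ ?_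
  · intro _ _ t1 S1 h1 hc1 htt _
    simpa using Phi_mono hu hd hloc' htt h0 h1 (hc0.trans hc1.symm)
  · intro a s has hmax IH hE ht0 t1 S1 h1 hc1 htt ht1
    have ea : IsEvent X Y P m a.1 a.2 := hE a (Finset.mem_insert_self _ _)
    have hlt : ∀ e ∈ s, slope X Y e.1 e.2 < slope X Y a.1 a.2 := by
      intro e he
      rcases lt_or_eq_of_le (hmax e he) with h | h
      · exact h
      · exfalso
        have ee : IsEvent X Y P m e.1 e.2 := hE e (Finset.mem_insert_of_mem he)
        obtain ⟨h1, h2⟩ := event_eq_of_slope_eq hgp ee ea h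
        exact has ((Prod.ext h1 h2 : e = a) ▸ he)
    have step1 := IH (fun e he => hE e (Finset.mem_insert_of_mem he))
      (fun e he => ht0 e (Finset.mem_insert_of_mem he)) (slope X Y a.1 a.2)
      (insert a.1 (below X Y P a.1 a.2)) (cutMinus_event hgp ea) (card_insert_left ea)
      (ht0 a (Finset.mem_insert_self _ _)) hlt
    have step2 : Phi P u d (slope X Y a.1 a.2) (insert a.1 (below X Y P a.1 a.2)) + g a.1 a.2
        ≤ Phi P u d (slope X Y a.1 a.2) (insert a.2 (below X Y P a.1 a.2)) := by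
      rw [Phi_insert ea.hp not_mem_below_left, Phi_insert ea.hq (not_mem_below_right ea.hlt)]
      have := hloc a.1 ea.hp a.2 ea.hq ea.hlt
      linarith
    have step3 := Phi_mono hu hd hloc' (ht1 a (Finset.mem_insert_self _ _))
      (cutPlus_event hgp ea) h1 ((card_insert_right ea).trans hc1.symm)
    rw [Finset.sum_insert has]
    linarith

end Vale.Agent.P065
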