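import Mathlib

namespace Vale.Agent.P065

def Hit (K : Set (ℝ × ℝ)) (x y s t : ℝ) : Prop :=
  ∃ a : ℝ, 0 < a ∧ (x + s * a, y + s * a * t) ∈ K

lemma hit_both {K : Set (ℝ × ℝ)} (hK : Convex ℝ K) {x y s t : ℝ}
    (h1 : Hit K x y s t) (h2 : Hit K x y (-s) t) : (x, y) ∈ K := by
  obtain ⟨a, ha, hc⟩ := h1
  obtain ⟨b, hb, hc'⟩ := h2
  have hab : 0 < a + b := by linarith
  have := hK hc hc' (a := b / (a + b)) (b := a / (a + b)) (by positivity) (by positivity)
    (by field_simp; ring)
  convert this using 1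
  ext
  · simp only [Prod.smul_mk, Prod.mk_add_mk, smul_eq_mul]
    field_simp
    ring
  · simp only [Prod.smul_mk, Prod.mk_add_mk, smul_eq_mul]
    field_simp
    ring

lemma hit_between {K : Set (ℝ × ℝ)} (hK : Convex ℝ K) {x y s r r' r'' : ℝ}
    (h1 : Hit K x y s r) (h2 : Hit K x y s r') (hr : r ≤ r'') (hr' : r'' ≤ r') :
    Hit K x y s r'' := by
  rcases eq_or_lt_of_le hr with rfl | hlt
  · exact h1
  obtain ⟨a, ha, hc⟩ := h1
  obtain ⟨b, hb, hc'⟩ := h2
  have hden : 0 < a * (r'' - r) + b * (r' - r'') := by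
    have : 0 < a * (r'' - r) := mul_pos ha (by linarith)
    have : 0 ≤ b * (r' - r'') := mul_nonneg hb.le (by linarith)
    linarith
  have h01 : 0 ≤ b * (r' - r'') / (a * (r'' - r) + b * (r' - r'')) :=
    div_nonneg (mul_nonneg hb.le (by linarith)) hden.le
  have h02 : 0 ≤ a * (r'' - r) / (a * (r'' - r) + b * (r' - r'')) :=
    div_nonneg (mul_nonneg ha.le (by linarith)) hden.le
  have := hK hc hc' h01 h02 (by field_simp; ring)
  refine ⟨a * b * (r' - r) / (a * (r'' - r) + b * (r' - r'')), ?_, ?_⟩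
  · exact div_pos (mul_pos (mul_pos ha hb) (by linarith)) hden
  · convert this using 1
    ext
    · simp only [Prod.smul_mk, Prod.mk_add_mk, smul_eq_mul]
      field_simp
      ring
    · simp only [Prod.smul_mk, Prod.mk_add_mk, smul_eq_mul]
      field_simp
      ring

lemma hit_extend_low {K : Set (ℝ × ℝ)} (hK : Convex ℝ K) {x y s r r' r'' : ℝ}
    (h1 : Hit K x y s r) (h2 : Hit K x y (-s) r') (hr : r < r') (hr' : r'' ≤ r) :
    Hit K x y s r'' := by
  obtain ⟨a, ha, hc⟩ := h1
  obtain ⟨b, hb, hc'⟩ := h2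
  have hden : 0 < a * (r - r'') + b * (r' - r'') := by
    have : 0 ≤ a * (r - r'') := mul_nonneg ha.le (by linarith)
    have : 0 < b * (r' - r'') := mul_pos hb (by linarith)
    linarith
  have h01 : 0 ≤ b * (r' - r'') / (a * (r - r'') + b * (r' - r'')) :=
    div_nonneg (mul_nonneg hb.le (by linarith)) hden.le
  have h02 : 0 ≤ a * (r - r'') / (a * (r - r'') + b * (r' - r'')) :=
    div_nonneg (mul_nonneg ha.le (by linarith)) hden.le
  have := hK hc hc' h01 h02 (by field_simp; ring)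
  refine ⟨a * b * (r' - r) / (a * (r - r'') + b * (r' - r'')), ?_, ?_⟩
  · exact div_pos (mul_pos (mul_pos ha hb) (by linarith)) hden
  · convert this using 1
    ext
    · simp only [Prod.smul_mk, Prod.mk_add_mk, smul_eq_mul]
      field_simp
      ring
    · simp only [Prod.smul_mk, Prod.mk_add_mk, smul_eq_mul]
      field_simp
      ring

lemma hit_extend_high {K : Set (ℝ × ℝ)} (hK : Convex ℝ K) {x y s r r' r'' : ℝ}
    (h1 : Hit K x y s r) (h2 : Hit K x y (-s) r') (hr : r' < r) (hr' : r ≤ r'') :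
    Hit K x y s r'' := by
  obtain ⟨a, ha, hc⟩ := h1
  obtain ⟨b, hb, hc'⟩ := h2
  have hden : 0 < a * (r'' - r) + b * (r'' - r') := by
    have : 0 ≤ a * (r'' - r) := mul_nonneg ha.le (by linarith)
    have : 0 < b * (r'' - r') := mul_pos hb (by linarith)
    linarith
  have h01 : 0 ≤ b * (r'' - r') / (a * (r'' - r) + b * (r'' - r')) :=
    div_nonneg (mul_nonneg hb.le (by linarith)) hden.le
  have h02 : 0 ≤ a * (r'' - r) / (a * (r'' - r) + b * (r'' - r')) :=
    div_nonneg (mul_nonneg ha.le (by linarith)) hden.le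
  have := hK hc hc' h01 h02 (by field_simp; ring)
  refine ⟨a * b * (r - r') / (a * (r'' - r) + b * (r'' - r')), ?_, ?_⟩
  · exact div_pos (mul_pos (mul_pos ha hb) (by linarith)) hden
  · convert this using 1
    ext
    · simp only [Prod.smul_mk, Prod.mk_add_mk, smul_eq_mul]
      field_simp
      ring
    · simp only [Prod.smul_mk, Prod.mk_add_mk, smul_eq_mul]
      field_simp
      ring

def St (H : ℝ → Prop) (t : ℝ) : Prop := ∃ r, r ≤ t ∧ H r

def En (H : ℝ → Prop) (t : ℝ) : Prop := (∃ r, r < t ∧ H r) ∧ ¬ ∃ r, t ≤ r ∧ H r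

open Classical in
noncomputable def ind (p : Prop) : ℤ := if p then 1 else 0

lemma ind_true {p : Prop} (h : p) : ind p = 1 := by simp [ind, h]

lemma ind_false {p : Prop} (h : ¬ p) : ind p = 0 := by simp [ind, h]

lemma ind_nonneg (p : Prop) : 0 ≤ ind p := by
  by_cases h : p <;> simp [ind, h]

lemma ind_le_one (p : Prop) : ind p ≤ 1 := by
  by_cases h : p <;> simp [ind, h]

lemma ind_mono {p q : Prop} (h : p → q) : ind p ≤ ind q := by
  by_cases hp : p
  · rw [ind_true hp, ind_true (h hp)]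
  · rw [ind_false hp]; exact ind_nonneg q

lemma St_mono (H : ℝ → Prop) : Monotone (fun t => ind (St H t)) := by
  intro t t' htt
  apply ind_mono
  rintro ⟨r, hr, h⟩
  exact ⟨r, hr.trans htt, h⟩

lemma En_mono (H : ℝ → Prop) : Monotone (fun t => ind (En H t)) := by
  intro t t' htt
  apply ind_mono
  rintro ⟨⟨r, hr, h⟩, h2⟩
  exact ⟨⟨r, lt_of_lt_of_le hr htt, h⟩, fun ⟨r', hr', h'⟩ => h2 ⟨r', htt.trans hr', h'⟩⟩

lemma ind_eq_St_sub_En {H : ℝ → Prop}
    (hint : ∀ r r' r'', H r → H r' → r ≤ r'' → r'' ≤ r' → H r'') (t : ℝ) :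
    ind (H t) = ind (St H t) - ind (En H t) := by
  by_cases h : H t
  · have h1 : St H t := ⟨t, le_refl _, h⟩
    have h2 : ¬ En H t := fun hh => hh.2 ⟨t, le_refl _, h⟩
    rw [ind_true h, ind_true h1, ind_false h2]; ring
  · by_cases h1 : St H t
    · obtain ⟨r, hr, hHr⟩ := h1
      have hrt : r < t := lt_of_le_of_ne hr (fun hh => h (hh ▸ hHr))
      have h2 : En H t := ⟨⟨r, hrt, hHr⟩, fun ⟨r', hr', hHr'⟩ => h (hint r r' t hHr hHr' hr hr')⟩
      have h1' : St H t := ⟨r, hr, hHr⟩
      rw [ind_false h, ind_true h1', ind_true h2]; ring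
    · have h2 : ¬ En H t := fun hh => by
        obtain ⟨⟨r, hr, hHr⟩, _⟩ := hh
        exact h1 ⟨r, hr.le, hHr⟩
      rw [ind_false h, ind_false h1, ind_false h2]; ring

lemma boundary_bound {K : Set (ℝ × ℝ)} (hK : Convex ℝ K) {x y s : ℝ} (hz : (x, y) ∉ K)
    {t0 t1 : ℝ} :
    ind (St (Hit K x y (-s)) t1) + ind (En (Hit K x y s) t1)
      ≤ 1 + ind (St (Hit K x y s) t0) + ind (En (Hit K x y (-s)) t0) := by
  by_cases h1 : St (Hit K x y (-s)) t1
  · by_cases h2 : En (Hit K x y s) t1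
    · obtain ⟨r', hr', hb⟩ := h1
      obtain ⟨⟨r, hr, hf⟩, hno⟩ := h2
      have hne : r ≠ r' := fun hh => hz (hit_both hK hf (hh ▸ hb))
      rcases lt_or_gt_of_ne hne with hlt | hgt
      · have : St (Hit K x y s) t0 :=
          ⟨min r t0, min_le_right _ _, hit_extend_low hK hf hb hlt (min_le_left _ _)⟩
        rw [ind_true this]
        have := ind_le_one (St (Hit K x y (-s)) t1)
        have := ind_le_one (En (Hit K x y s) t1)
        have := ind_nonneg (En (Hit K x y (-s)) t0)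
        linarith
      · exfalso
        exact hno ⟨max r t1, le_max_right _ _, hit_extend_high hK hf hb hgt (le_max_left _ _)⟩
    · rw [ind_false h2]
      have := ind_le_one (St (Hit K x y (-s)) t1)
      have := ind_nonneg (En (Hit K x y (-s)) t0)
      have := ind_nonneg (St (Hit K x y s) t0)
      linarith
  · rw [ind_false h1]
    have := ind_le_one (En (Hit K x y s) t1)
    have := ind_nonneg (En (Hit K x y (-s)) t0)
    have := ind_nonneg (St (Hit K x y s) t0)
    linarith

end Vale.Agent.P065
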