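import Mathlib
import Vale.Agent.P065.Core
import Vale.Agent.P065.Hit

namespace Vale.Agent.P065

open Finset

variable {α : Type*} [DecidableEq α]

def hullOf (X Y : α → ℝ) (A : Finset α) (z : α) : Set (ℝ × ℝ) :=
  convexHull ℝ ((fun a => (X a, Y a)) '' ((A : Set α) \ {z}))

def Inn (X Y : α → ℝ) (A : Finset α) (z : α) : Prop := (X z, Y z) ∈ hullOf X Y A z

def kap (A : Finset α) (z : α) : ℤ := if z ∈ A then 1 else 2

def Fw (X Y : α → ℝ) (A : Finset α) (z : α) (t : ℝ) : Prop :=
  Hit (hullOf X Y A z) (X z) (Y z) 1 t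

def Bw (X Y : α → ℝ) (A : Finset α) (z : α) (t : ℝ) : Prop :=
  Hit (hullOf X Y A z) (X z) (Y z) (-1) t

open Classical in
noncomputable def uW (X Y : α → ℝ) (A : Finset α) (t : ℝ) (z : α) : ℤ :=
  if Inn X Y A z then 0 else kap A z * (ind (St (Bw X Y A z) t) + ind (En (Fw X Y A z) t))

open Classical in
noncomputable def dW (X Y : α → ℝ) (A : Finset α) (t : ℝ) (z : α) : ℤ :=
  if Inn X Y A z then 0 else kap A z * (ind (St (Fw X Y A z) t) + ind (En (Bw X Y A z) t))

open Classical in
noncomputable def kapI (X Y : α → ℝ) (A : Finset α) (z : α) : ℤ :=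
  if Inn X Y A z then 0 else kap A z

lemma kap_pos (A : Finset α) (z : α) : 0 < kap A z := by
  unfold kap; split_ifs <;> norm_num

lemma convex_hullOf (X Y : α → ℝ) (A : Finset α) (z : α) : Convex ℝ (hullOf X Y A z) :=
  convex_convexHull ℝ _

lemma uW_mono (X Y : α → ℝ) (A : Finset α) (z : α) : Monotone (fun t => uW X Y A t z) := by
  intro t t' h
  unfold uW
  by_cases hI : Inn X Y A z
  · simp [hI]
  · simp only [hI, if_false]
    have h1 := St_mono (Bw X Y A z) h
    have h2 := En_mono (Fw X Y A z) h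
    simp only at h1 h2
    exact mul_le_mul_of_nonneg_left (by linarith) (kap_pos A z).le

lemma dW_mono (X Y : α → ℝ) (A : Finset α) (z : α) : Monotone (fun t => dW X Y A t z) := by
  intro t t' h
  unfold dW
  by_cases hI : Inn X Y A z
  · simp [hI]
  · simp only [hI, if_false]
    have h1 := St_mono (Fw X Y A z) h
    have h2 := En_mono (Bw X Y A z) h
    simp only at h1 h2
    exact mul_le_mul_of_nonneg_left (by linarith) (kap_pos A z).le

lemma v_inn {X Y : α → ℝ} {A : Finset α} {z : α} (h : Inn X Y A z) (t : ℝ) :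
    uW X Y A t z - dW X Y A t z = 0 := by
  simp [uW, dW, h]

lemma v_not_inn {X Y : α → ℝ} {A : Finset α} {z : α} (h : ¬ Inn X Y A z) (t : ℝ) :
    uW X Y A t z - dW X Y A t z = kap A z * (ind (Bw X Y A z t) - ind (Fw X Y A z t)) := by
  have hB := ind_eq_St_sub_En (H := Bw X Y A z)
    (fun r r' r'' h1 h2 h3 h4 => hit_between (convex_hullOf X Y A z) h1 h2 h3 h4) t
  have hF := ind_eq_St_sub_En (H := Fw X Y A z)
    (fun r r' r'' h1 h2 h3 h4 => hit_between (convex_hullOf X Y A z) h1 h2 h3 h4) t
  simp only [uW, dW, h, if_false]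
  rw [hB, hF]
  ring

lemma not_both {X Y : α → ℝ} {A : Finset α} {z : α} (h : ¬ Inn X Y A z) {t : ℝ}
    (h1 : Fw X Y A z t) (h2 : Bw X Y A z t) : False :=
  h (hit_both (convex_hullOf X Y A z) h1 h2)

lemma bound1 (X Y : α → ℝ) (A : Finset α) (z : α) (t0 t1 : ℝ) :
    uW X Y A t1 z - dW X Y A t0 z ≤ kapI X Y A z := by
  by_cases hI : Inn X Y A z
  · simp [uW, dW, kapI, hI]
  · simp only [uW, dW, kapI, hI, if_false]
    have := boundary_bound (convex_hullOf X Y A z) (s := 1) hI (t0 := t0) (t1 := t1)
    have hk := kap_pos A z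
    unfold Bw Fw
    nlinarith

lemma bound2 (X Y : α → ℝ) (A : Finset α) (z : α) (t0 t1 : ℝ) :
    dW X Y A t1 z - uW X Y A t0 z ≤ kapI X Y A z := by
  by_cases hI : Inn X Y A z
  · simp [uW, dW, kapI, hI]
  · simp only [uW, dW, kapI, hI, if_false]
    have := boundary_bound (convex_hullOf X Y A z) (s := -1) hI (t0 := t0) (t1 := t1)
    rw [neg_neg] at this
    have hk := kap_pos A z
    unfold Bw Fw
    nlinarith

lemma hit_of_mem_convexHull_insert {T : Set (ℝ × ℝ)} {x y σ t a : ℝ} (ha : 0 < a) (hσ : σ ≠ 0)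
    (h : (x + σ * a, y + σ * a * t) ∈ convexHull ℝ (insert (x, y) T)) :
    Hit (convexHull ℝ T) x y σ t := by
  rcases T.eq_empty_or_nonempty with rfl | hT
  · exfalso
    simp only [insert_empty_eq, convexHull_singleton, Set.mem_singleton_iff, Prod.mk.injEq] at h
    have : σ * a = 0 := by linarith [h.1]
    rcases mul_eq_zero.mp this with h1 | h1
    · exact hσ h1
    · exact ha.ne' h1
  · rw [convexHull_insert hT, mem_convexJoin] at h
    obtain ⟨c0, hc0, c, hc, hseg⟩ := h
    rw [Set.mem_singleton_iff] at hc0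
    subst hc0
    obtain ⟨al, be, hal, hbe, hsum, heq⟩ := hseg
    have e1 : al * x + be * c.1 = x + σ * a := by
      have := congrArg Prod.fst heq
      simpa using this
    have e2 : al * y + be * c.2 = y + σ * a * t := by
      have := congrArg Prod.snd heq
      simpa using this
    have hbe0 : be ≠ 0 := by
      intro h0
      rw [h0] at e1 hsum
      have hal1 : al = 1 := by linarith
      rw [hal1] at e1
      have : σ * a = 0 := by linarith
      rcases mul_eq_zero.mp this with h1 | h1
      · exact hσ h1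
      · exact ha.ne' h1
    have hbe' : 0 < be := lt_of_le_of_ne hbe (Ne.symm hbe0)
    refine ⟨a / be, div_pos ha hbe', ?_⟩
    have hal1 : al = 1 - be := by linarith
    have c1 : c.1 = x + σ * (a / be) := by
      field_simp
      rw [hal1] at e1
      linarith
    have c2 : c.2 = y + σ * (a / be) * t := by
      field_simp
      rw [hal1] at e2
      linarith
    have : c = (x + σ * (a / be), y + σ * (a / be) * t) := Prod.ext c1 c2
    rw [← this]
    exact hc

lemma hullOf_of_notMem {X Y : α → ℝ} {A : Finset α} {z : α} (h : z ∉ A) :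
    hullOf X Y A z = convexHull ℝ ((fun a => (X a, Y a)) '' (A : Set α)) := by
  unfold hullOf
  congr 2
  ext x
  simp only [Set.mem_sdiff, Finset.mem_coe, Set.mem_singleton_iff]
  constructor
  · exact fun hx => hx.1
  · exact fun hx => ⟨hx, fun hh => h (hh ▸ hx)⟩

lemma image_eq_insert {X Y : α → ℝ} {A : Finset α} {z : α} (h : z ∈ A) :
    (fun a => (X a, Y a)) '' (A : Set α)
      = insert (X z, Y z) ((fun a => (X a, Y a)) '' ((A : Set α) \ {z})) := by
  have hA : (A : Set α) = insert z ((A : Set α) \ {z}) := by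
    ext x
    simp only [Set.mem_insert_iff, Set.mem_sdiff, Finset.mem_coe, Set.mem_singleton_iff]
    constructor
    · intro hx
      by_cases hxz : x = z
      · exact Or.inl hxz
      · exact Or.inr ⟨hx, hxz⟩
    · rintro (rfl | hx)
      · exact h
      · exact hx.1
  conv_lhs => rw [hA]
  exact Set.image_insert_eq

section localineq

variable {X Y : α → ℝ} {A : Finset α} {p q : α}

lemma pt_right (hpq : X p < X q) :
    ((X q, Y q) : ℝ × ℝ)
      = (X p + 1 * (X q - X p), Y p + 1 * (X q - X p) * slope X Y p q) := by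
  have : X q - X p ≠ 0 := (sub_pos.mpr hpq).ne'
  ext
  · simp
  · simp only [slope]
    field_simp
    ring

lemma pt_left (hpq : X p < X q) :
    ((X p, Y p) : ℝ × ℝ)
      = (X q + (-1) * (X q - X p), Y q + (-1) * (X q - X p) * slope X Y p q) := by
  have : X q - X p ≠ 0 := (sub_pos.mpr hpq).ne'
  ext
  · simp
  · simp only [slope]
    field_simp
    ring

lemma Fw_of_mem (hpq : X p < X q) (hq : q ∈ A) : Fw X Y A p (slope X Y p q) := by
  refine ⟨X q - X p, sub_pos.mpr hpq, ?_⟩
  rw [← pt_right hpq]
  apply subset_convexHull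
  refine ⟨q, ⟨hq, ?_⟩, rfl⟩
  intro h
  rw [Set.mem_singleton_iff] at h
  rw [h] at hpq
  exact lt_irrefl _ hpq

lemma Bw_of_mem (hpq : X p < X q) (hp : p ∈ A) : Bw X Y A q (slope X Y p q) := by
  refine ⟨X q - X p, sub_pos.mpr hpq, ?_⟩
  rw [← pt_left hpq]
  apply subset_convexHull
  refine ⟨p, ⟨hp, ?_⟩, rfl⟩
  intro h
  rw [Set.mem_singleton_iff] at h
  rw [h] at hpq
  exact lt_irrefl _ hpq

lemma Bw_of_inn (hpq : X p < X q) (hp : p ∉ A) (hI : Inn X Y A p) :
    Bw X Y A q (slope X Y p q) := by
  unfold Inn at hI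
  rw [hullOf_of_notMem hp] at hI
  by_cases hq : q ∈ A
  · rw [image_eq_insert hq, pt_left hpq] at hI
    exact hit_of_mem_convexHull_insert (sub_pos.mpr hpq) (by norm_num) hI
  · refine ⟨X q - X p, sub_pos.mpr hpq, ?_⟩
    rw [← pt_left hpq, hullOf_of_notMem hq]
    exact hI

lemma Fw_of_inn (hpq : X p < X q) (hq : q ∉ A) (hI : Inn X Y A q) :
    Fw X Y A p (slope X Y p q) := by
  unfold Inn at hI
  rw [hullOf_of_notMem hq] at hI
  by_cases hp : p ∈ A
  · rw [image_eq_insert hp, pt_right hpq] at hI
    exact hit_of_mem_convexHull_insert (sub_pos.mpr hpq) (by norm_num) hI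
  · refine ⟨X q - X p, sub_pos.mpr hpq, ?_⟩
    rw [← pt_right hpq, hullOf_of_notMem hp]
    exact hI

lemma Fw_trans (hpq : X p < X q) (hp : p ∉ A) (hq : q ∉ A)
    (h : Fw X Y A q (slope X Y p q)) : Fw X Y A p (slope X Y p q) := by
  obtain ⟨a, ha, hc⟩ := h
  refine ⟨a + (X q - X p), by linarith [sub_pos.mpr hpq], ?_⟩
  rw [hullOf_of_notMem hq] at hc
  rw [hullOf_of_notMem hp]
  convert hc using 1
  have e := pt_right (Y := Y) hpq
  have e1 := congrArg Prod.fst e
  have e2 := congrArg Prod.snd e
  simp only at e1 e2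
  ext
  · simp only; linarith
  · simp only; rw [e2]; ring

lemma Bw_trans (hpq : X p < X q) (hp : p ∉ A) (hq : q ∉ A)
    (h : Bw X Y A p (slope X Y p q)) : Bw X Y A q (slope X Y p q) := by
  obtain ⟨a, ha, hc⟩ := h
  refine ⟨a + (X q - X p), by linarith [sub_pos.mpr hpq], ?_⟩
  rw [hullOf_of_notMem hp] at hc
  rw [hullOf_of_notMem hq]
  convert hc using 1
  have e := pt_left (Y := Y) hpq
  have e1 := congrArg Prod.fst e
  have e2 := congrArg Prod.snd e
  simp only at e1 e2
  ext
  · simp only; linarith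
  · simp only; rw [e2]; ring

lemma local_ineq (hconv : ∀ a ∈ A, ¬ Inn X Y A a) (hpq : X p < X q) :
    uW X Y A (slope X Y p q) p - dW X Y A (slope X Y p q) p + (ind (p ∈ A) + ind (q ∈ A))
      ≤ uW X Y A (slope X Y p q) q - dW X Y A (slope X Y p q) q := by
  set s := slope X Y p q with hs
  by_cases hp : p ∈ A
  · have hIp := hconv p hp
    have hBq : Bw X Y A q s := Bw_of_mem hpq hp
    rw [v_not_inn hIp, ind_true hp]
    have kp : kap A p = 1 := by simp [kap, hp]
    by_cases hq : q ∈ A
    · have hIq := hconv q hq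
      have hFp : Fw X Y A p s := Fw_of_mem hpq hq
      have hBp : ¬ Bw X Y A p s := fun h => not_both hIp hFp h
      have hFq : ¬ Fw X Y A q s := fun h => not_both hIq h hBq
      have kq : kap A q = 1 := by simp [kap, hq]
      rw [v_not_inn hIq, ind_true hq, ind_true hFp, ind_false hBp, ind_true hBq, ind_false hFq,
        kp, kq]
      norm_num
    · have kq : kap A q = 2 := by simp [kap, hq]
      rw [ind_false hq, kp]
      by_cases hIq : Inn X Y A q
      · have hFp : Fw X Y A p s := Fw_of_inn hpq hq hIq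
        have hBp : ¬ Bw X Y A p s := fun h => not_both hIp hFp h
        rw [v_inn hIq, ind_true hFp, ind_false hBp]
        norm_num
      · have hFq : ¬ Fw X Y A q s := fun h => not_both hIq h hBq
        rw [v_not_inn hIq, ind_true hBq, ind_false hFq, kq]
        have := ind_le_one (Bw X Y A p s)
        have := ind_nonneg (Fw X Y A p s)
        linarith
  · have kp : kap A p = 2 := by simp [kap, hp]
    rw [ind_false hp]
    by_cases hq : q ∈ A
    · have hIq := hconv q hq
      have hFp : Fw X Y A p s := Fw_of_mem hpq hq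
      have kq : kap A q = 1 := by simp [kap, hq]
      rw [v_not_inn hIq, ind_true hq, kq]
      by_cases hIp : Inn X Y A p
      · have hBq : Bw X Y A q s := Bw_of_inn hpq hp hIp
        have hFq : ¬ Fw X Y A q s := fun h => not_both hIq h hBq
        rw [v_inn hIp, ind_true hBq, ind_false hFq]
        norm_num
      · have hBp : ¬ Bw X Y A p s := fun h => not_both hIp hFp h
        rw [v_not_inn hIp, ind_true hFp, ind_false hBp, kp]
        have := ind_le_one (Fw X Y A q s)
        have := ind_nonneg (Bw X Y A q s)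
        linarith
    · have kq : kap A q = 2 := by simp [kap, hq]
      rw [ind_false hq]
      by_cases hIp : Inn X Y A p
      · rw [v_inn hIp]
        by_cases hIq : Inn X Y A q
        · rw [v_inn hIq]; norm_num
        · have hBq : Bw X Y A q s := Bw_of_inn hpq hp hIp
          have hFq : ¬ Fw X Y A q s := fun h => not_both hIq h hBq
          rw [v_not_inn hIq, ind_true hBq, ind_false hFq, kq]
          norm_num
      · rw [v_not_inn hIp, kp]
        by_cases hIq : Inn X Y A q
        · have hFp : Fw X Y A p s := Fw_of_inn hpq hq hIq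
          have hBp : ¬ Bw X Y A p s := fun h => not_both hIp hFp h
          rw [v_inn hIq, ind_true hFp, ind_false hBp]
          norm_num
        · rw [v_not_inn hIq, kq]
          have h1 : ind (Bw X Y A p s) ≤ ind (Bw X Y A q s) := ind_mono (Bw_trans hpq hp hq)
          have h2 : ind (Fw X Y A q s) ≤ ind (Fw X Y A p s) := ind_mono (Fw_trans hpq hp hq)
          linarith

end localineq

end Vale.Agent.P065
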