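import Mathlib
import Vale.Agent.P065.Core
import Vale.Agent.P065.Hit
import Vale.Agent.P065.Weights

namespace Vale.Agent.P065

open Finset

variable {α : Type*} [DecidableEq α]

lemma exists_lower_set (X : α → ℝ) (P : Finset α) (hX : Set.InjOn X P) :
    ∀ k : ℕ, k ≤ P.card → ∃ S : Finset α, S ⊆ P ∧ S.card = k ∧
      ∀ z ∈ S, ∀ w ∈ P, w ∉ S → X z < X w := by
  intro k
  induction k with
  | zero => intro _; exact ⟨∅, by simp, by simp, by simp⟩
  | succ k ih =>
    intro hk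
    obtain ⟨S, hS, hc, hlt⟩ := ih (by omega)
    have hne : (P \ S).Nonempty := by
      rw [← Finset.card_pos, Finset.card_sdiff_of_subset hS]
      omega
    obtain ⟨w0, hw0, hmin⟩ := Finset.exists_min_image (P \ S) X hne
    rw [Finset.mem_sdiff] at hw0
    refine ⟨insert w0 S, ?_, ?_, ?_⟩
    · intro x hx
      rcases Finset.mem_insert.mp hx with rfl | hx
      · exact hw0.1
      · exact hS hx
    · rw [Finset.card_insert_of_notMem hw0.2, hc]
    · intro z hz w hw hw'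
      have hw1 : w ≠ w0 := fun h => hw' (h ▸ Finset.mem_insert_self _ _)
      have hw2 : w ∉ S := fun h => hw' (Finset.mem_insert_of_mem h)
      rcases Finset.mem_insert.mp hz with rfl | hz
      · have h1 := hmin w (Finset.mem_sdiff.mpr ⟨hw, hw2⟩)
        rcases lt_or_eq_of_le h1 with h2 | h2
        · exact h2
        · exact absurd (hX hw0.1 hw h2).symm hw1
      · exact hlt z hz w hw hw2

theorem degree_sum_abstract {X Y : α → ℝ} {P A : Finset α} {m : ℕ} (hX : Set.InjOn X P)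
    (hgp : GP X Y P) (hcard : P.card = 2 * (m + 1)) (hconv : ∀ a ∈ A, ¬ Inn X Y A a)
    (E : Finset (α × α)) (hE : ∀ e ∈ E, IsEvent X Y P m e.1 e.2) :
    ∑ e ∈ E, (ind (e.1 ∈ A) + ind (e.2 ∈ A)) ≤ ∑ z ∈ P, kapI X Y A z := by
  classical
  obtain ⟨S0, hS0, hc0, hlt0⟩ := exists_lower_set X P hX (m + 1) (by omega)
  obtain ⟨M, hM⟩ := (((P ×ˢ P).image (fun e : α × α => slope X Y e.1 e.2)).image
    (fun s : ℝ => |s|)).exists_le
  have hM' : ∀ z ∈ P, ∀ w ∈ P, |slope X Y z w| ≤ |M| := by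
    intro z hz w hw
    refine le_trans (hM _ ?_) (le_abs_self M)
    refine Finset.mem_image.mpr ⟨slope X Y z w, ?_, rfl⟩
    exact Finset.mem_image.mpr ⟨(z, w), Finset.mem_product.mpr ⟨hz, hw⟩, rfl⟩
  set t1 : ℝ := |M| + 1 with ht1
  set t0 : ℝ := -(|M| + 1) with ht0
  have hMn : 0 ≤ |M| := abs_nonneg M
  have hs0 : ∀ z ∈ P, ∀ w ∈ P, t0 < slope X Y z w := by
    intro z hz w hw
    have := abs_le.mp (hM' z hz w hw)
    linarith [this.1]
  have hs1 : ∀ z ∈ P, ∀ w ∈ P, slope X Y z w < t1 := by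
    intro z hz w hw
    have := abs_le.mp (hM' z hz w hw)
    linarith [this.2]
  have C0 : CutPlus X Y P t0 S0 := by
    refine ⟨hS0, ?_⟩
    intro z hz w hw hw'
    left
    have hx := hlt0 z hz w hw hw'
    have h1 := hs0 z (hS0 hz) w hw
    unfold slope at h1
    rw [lt_div_iff₀ (sub_pos.mpr hx)] at h1
    unfold eta
    linarith
  have C1 : CutMinus X Y P t1 (P \ S0) := by
    refine ⟨Finset.sdiff_subset, ?_⟩
    intro z hz w hw hw'
    left
    rw [Finset.mem_sdiff] at hz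
    have hwS : w ∈ S0 := by
      by_contra h
      exact hw' (Finset.mem_sdiff.mpr ⟨hw, h⟩)
    have hx := hlt0 w hwS z hz.1 hz.2
    have h1 := hs1 w hw z hz.1
    unfold slope at h1
    rw [div_lt_iff₀ (sub_pos.mpr hx)] at h1
    unfold eta
    linarith
  have hc1 : (P \ S0).card = m + 1 := by
    rw [Finset.card_sdiff_of_subset hS0]
    omega
  have main := potential_principle (X := X) (Y := Y) (P := P) (m := m)
    (u := uW X Y A) (d := dW X Y A) hgp (uW_mono X Y A) (dW_mono X Y A)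
    (fun z w => ind (z ∈ A) + ind (w ∈ A))
    (fun z w => add_nonneg (ind_nonneg _) (ind_nonneg _))
    (fun z _ w _ hx => local_ineq hconv hx) C0 hc0 E hE
    (fun e he => hs0 e.1 (hE e he).hp e.2 (hE e he).hq) t1 (P \ S0) C1 hc1 (by linarith)
    (fun e he => hs1 e.1 (hE e he).hp e.2 (hE e he).hq)
  unfold Phi at main
  rw [Finset.sdiff_sdiff_eq_self hS0] at main
  have b1 : ∑ x ∈ P \ S0, (uW X Y A t1 x - dW X Y A t0 x) ≤ ∑ x ∈ P \ S0, kapI X Y A x :=
    Finset.sum_le_sum (fun x _ => bound1 X Y A x t0 t1)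
  have b2 : ∑ x ∈ S0, (dW X Y A t1 x - uW X Y A t0 x) ≤ ∑ x ∈ S0, kapI X Y A x :=
    Finset.sum_le_sum (fun x _ => bound2 X Y A x t0 t1)
  rw [Finset.sum_sub_distrib] at b1 b2
  have hsplit := Finset.sum_sdiff (f := kapI X Y A) hS0
  linarith

end Vale.Agent.P065
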