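import Mathlib
import Vale.Agent.P065.Defs
import Vale.Agent.P065.DegSum

namespace Vale.Agent.P065

open Finset

lemma collinear_of_det3_eq_zero {p q r : ℝ × ℝ} (hpq : p ≠ q) (h : det3 p q r = 0) :
    Collinear ℝ ({p, q, r} : Set (ℝ × ℝ)) := by
  rw [collinear_iff_of_mem (p₀ := p) (by simp)]
  refine ⟨q - p, ?_⟩
  intro x hx
  simp only [Set.mem_insert_iff, Set.mem_singleton_iff] at hx
  unfold det3 at h
  rcases hx with rfl | rfl | rfl
  · exact ⟨0, by simp⟩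
  · exact ⟨1, by simp⟩
  · by_cases h1 : q.1 - p.1 = 0
    · have h2 : q.2 - p.2 ≠ 0 := by
        intro h2
        apply hpq
        ext
        · linarith
        · linarith
      refine ⟨(x.2 - p.2) / (q.2 - p.2), ?_⟩
      have hx1 : x.1 - p.1 = 0 := by
        rw [h1] at h
        have : (q.2 - p.2) * (x.1 - p.1) = 0 := by linarith
        rcases mul_eq_zero.mp this with h3 | h3
        · exact absurd h3 h2
        · exact h3
      ext
      · simp only [vadd_eq_add, Prod.fst_add, Prod.smul_fst, Prod.fst_sub, smul_eq_mul]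
        rw [h1]; linarith
      · simp only [vadd_eq_add, Prod.snd_add, Prod.smul_snd, Prod.snd_sub, smul_eq_mul]
        field_simp
        ring
    · refine ⟨(x.1 - p.1) / (q.1 - p.1), ?_⟩
      ext
      · simp only [vadd_eq_add, Prod.fst_add, Prod.smul_fst, Prod.fst_sub, smul_eq_mul]
        field_simp
        ring
      · simp only [vadd_eq_add, Prod.snd_add, Prod.smul_snd, Prod.snd_sub, smul_eq_mul]
        field_simp
        linarith

lemma exists_shear (P : Finset (ℝ × ℝ)) :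
    ∃ ε : ℝ, Set.InjOn (fun z : ℝ × ℝ => z.1 + ε * z.2) (P : Set (ℝ × ℝ)) := by
  classical
  set Bad : Finset ℝ := (P ×ˢ P).image (fun e => -(e.1.1 - e.2.1) / (e.1.2 - e.2.2)) with hBad
  obtain ⟨ε, hε⟩ := Infinite.exists_notMem_finset Bad
  refine ⟨ε, ?_⟩
  intro z hz w hw hzw
  simp only at hzw
  by_contra hne
  by_cases h2 : z.2 - w.2 = 0
  · apply hne
    ext
    · have : z.2 = w.2 := by linarith
      rw [this] at hzw
      linarith
    · linarith
  · apply hε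
    rw [hBad]
    refine Finset.mem_image.mpr ⟨(z, w), Finset.mem_product.mpr ⟨hz, hw⟩, ?_⟩
    simp only
    field_simp
    linarith

def shX (ε : ℝ) (z : ℝ × ℝ) : ℝ := z.1 + ε * z.2

def shY (z : ℝ × ℝ) : ℝ := z.2

lemma eta_sub_eq (ε : ℝ) {p q : ℝ × ℝ} (r : ℝ × ℝ) (h : shX ε p < shX ε q) :
    eta (shX ε) shY (slope (shX ε) shY p q) r - eta (shX ε) shY (slope (shX ε) shY p q) p
      = det3 p q r / (shX ε q - shX ε p) := by
  have h0 : shX ε q - shX ε p ≠ 0 := (sub_pos.mpr h).ne'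
  unfold eta slope det3
  field_simp
  unfold shX shY
  ring

lemma eta_lt_iff (ε : ℝ) {p q : ℝ × ℝ} (r : ℝ × ℝ) (h : shX ε p < shX ε q) :
    eta (shX ε) shY (slope (shX ε) shY p q) r < eta (shX ε) shY (slope (shX ε) shY p q) p
      ↔ det3 p q r < 0 := by
  rw [← sub_neg, eta_sub_eq ε r h, div_neg_iff]
  have h0 : 0 < shX ε q - shX ε p := sub_pos.mpr h
  constructor
  · rintro (⟨_, h2⟩ | ⟨h1, _⟩)
    · linarith
    · exact h1
  · intro h1
    exact Or.inr ⟨h1, h0⟩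

lemma eta_eq_iff (ε : ℝ) {p q : ℝ × ℝ} (r : ℝ × ℝ) (h : shX ε p < shX ε q) :
    eta (shX ε) shY (slope (shX ε) shY p q) r = eta (shX ε) shY (slope (shX ε) shY p q) p
      ↔ det3 p q r = 0 := by
  rw [← sub_eq_zero, eta_sub_eq ε r h, div_eq_zero_iff]
  have h0 : shX ε q - shX ε p ≠ 0 := (sub_pos.mpr h).ne'
  constructor
  · rintro (h1 | h1)
    · exact h1
    · exact absurd h1 h0
  · exact Or.inl

lemma gp_of_noThree {P : Finset (ℝ × ℝ)} (hP : NoThreeCollinear P) (ε : ℝ) :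
    GP (shX ε) shY P := by
  intro p hp q hq r hr hlt he
  rw [eta_eq_iff ε r hlt] at he
  by_contra hcon
  have hc1 : r ≠ p := fun h => hcon (Or.inl h)
  have hc2 : r ≠ q := fun h => hcon (Or.inr h)
  have hpq : p ≠ q := fun h => by rw [h] at hlt; exact lt_irrefl _ hlt
  exact hP p hp q hq r hr hpq (Ne.symm hc1) (Ne.symm hc2)
    (collinear_of_det3_eq_zero hpq he)

def shearMap (ε : ℝ) : (ℝ × ℝ) →ₗ[ℝ] (ℝ × ℝ) where
  toFun z := (z.1 + ε * z.2, z.2)
  map_add' a b := by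
    ext
    · simp only [Prod.fst_add, Prod.snd_add]; ring
    · simp
  map_smul' c a := by
    ext
    · simp only [Prod.smul_fst, Prod.smul_snd, smul_eq_mul, RingHom.id_apply]; ring
    · simp

lemma shearMap_injective (ε : ℝ) : Function.Injective (shearMap ε) := by
  intro a b h
  have h1 := congrArg Prod.fst h
  have h2 := congrArg Prod.snd h
  simp only [shearMap, LinearMap.coe_mk, AddHom.coe_mk] at h1 h2
  ext
  · rw [h2] at h1; linarith
  · exact h2

lemma inn_iff (ε : ℝ) (A : Finset (ℝ × ℝ)) (z : ℝ × ℝ) :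
    Inn (shX ε) shY A z ↔ z ∈ convexHull ℝ ((A : Set (ℝ × ℝ)) \ {z}) := by
  unfold Inn hullOf
  have h1 : (fun a : ℝ × ℝ => (shX ε a, shY a)) = shearMap ε := by
    ext a <;> simp [shearMap, shX, shY]
  have h2 : ((shX ε z, shY z) : ℝ × ℝ) = shearMap ε z := by
    simp [shearMap, shX, shY]
  rw [h1, h2, ← LinearMap.image_convexHull]
  exact (shearMap_injective ε).mem_set_image


lemma det3_swap (p q r : ℝ × ℝ) : det3 q p r = - det3 p q r := by
  unfold det3; ring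

lemma isHalvingPair_symm {P : Finset (ℝ × ℝ)} {p q : ℝ × ℝ} (h : IsHalvingPair P p q) :
    IsHalvingPair P q p := by
  obtain ⟨hp, hq, hne, h1, h2⟩ := h
  refine ⟨hq, hp, hne.symm, ?_, ?_⟩
  · have : (P.filter (fun r => 0 < det3 q p r)) = P.filter (fun r => det3 p q r < 0) := by
      apply Finset.filter_congr
      intro r _
      rw [det3_swap]
      constructor <;> intro h <;> linarith
    rw [this]; exact h2
  · have : (P.filter (fun r => det3 q p r < 0)) = P.filter (fun r => 0 < det3 p q r) := by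
      apply Finset.filter_congr
      intro r _
      rw [det3_swap]
      constructor <;> intro h <;> linarith
    rw [this]; exact h1

open Classical in
noncomputable def evSet (ε : ℝ) (P : Finset (ℝ × ℝ)) : Finset ((ℝ × ℝ) × (ℝ × ℝ)) :=
  (P ×ˢ P).filter (fun e => shX ε e.1 < shX ε e.2 ∧ IsHalvingPair P e.1 e.2)

lemma mem_evSet {ε : ℝ} {P : Finset (ℝ × ℝ)} {e : (ℝ × ℝ) × (ℝ × ℝ)} :
    e ∈ evSet ε P ↔ (e.1 ∈ P ∧ e.2 ∈ P) ∧ shX ε e.1 < shX ε e.2 ∧ IsHalvingPair P e.1 e.2 := by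
  unfold evSet
  simp only [Finset.mem_filter, Finset.mem_product]

lemma isEvent_of_mem_evSet {ε : ℝ} {P : Finset (ℝ × ℝ)} {m : ℕ} (hc : P.card = 2 * (m + 1))
    {e : (ℝ × ℝ) × (ℝ × ℝ)} (he : e ∈ evSet ε P) : IsEvent (shX ε) shY P m e.1 e.2 := by
  rw [mem_evSet] at he
  obtain ⟨⟨hp, hq⟩, hlt, hH⟩ := he
  refine ⟨hp, hq, hlt, ?_⟩
  have : below (shX ε) shY P e.1 e.2 = P.filter (fun r => det3 e.1 e.2 r < 0) := by
    unfold below
    apply Finset.filter_congr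
    intro r _
    exact eta_lt_iff ε r hlt
  rw [this]
  have := hH.2.2.2.2
  omega

lemma card_evSet {ε : ℝ} {P : Finset (ℝ × ℝ)}
    (hX : Set.InjOn (shX ε) (P : Set (ℝ × ℝ))) : (evSet ε P).card = halvingCount P := by
  classical
  unfold halvingCount
  refine Finset.card_bij (fun e _ => ({e.1, e.2} : Finset (ℝ × ℝ))) ?_ ?_ ?_
  · intro e he
    rw [mem_evSet] at he
    obtain ⟨⟨hp, hq⟩, _, hH⟩ := he
    rw [Finset.mem_filter, Finset.mem_powersetCard]
    refine ⟨⟨?_, Finset.card_pair hH.2.2.1⟩, e.1, e.2, rfl, hH⟩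
    intro x hx
    rcases Finset.mem_insert.mp hx with rfl | hx
    · exact hp
    · rw [Finset.mem_singleton] at hx; rw [hx]; exact hq
  · intro e he e' he' heq
    rw [mem_evSet] at he he'
    have l1 := he.2.1
    have l2 := he'.2.1
    have m1 : e.1 ∈ ({e'.1, e'.2} : Finset (ℝ × ℝ)) := heq ▸ (by simp)
    have m2 : e.2 ∈ ({e'.1, e'.2} : Finset (ℝ × ℝ)) := heq ▸ (by simp)
    simp only [Finset.mem_insert, Finset.mem_singleton] at m1 m2
    rcases m1 with m1 | m1 <;> rcases m2 with m2 | m2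
    · rw [m1, m2] at l1; exact absurd l1 (lt_irrefl _)
    · exact Prod.ext m1 m2
    · rw [m1, m2] at l1; exact absurd l1 (not_lt.mpr l2.le)
    · rw [m1, m2] at l1; exact absurd l1 (lt_irrefl _)
  · intro b hb
    rw [Finset.mem_filter] at hb
    obtain ⟨_, p, q, rfl, hH⟩ := hb
    have hne : shX ε p ≠ shX ε q := fun h => hH.2.2.1 (hX hH.1 hH.2.1 h)
    rcases lt_or_gt_of_ne hne with h | h
    · refine ⟨(p, q), ?_, rfl⟩
      rw [mem_evSet]
      exact ⟨⟨hH.1, hH.2.1⟩, h, hH⟩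
    · refine ⟨(q, p), ?_, Finset.pair_comm _ _⟩
      rw [mem_evSet]
      exact ⟨⟨hH.2.1, hH.1⟩, h, isHalvingPair_symm hH⟩

lemma evSet_eq_empty {ε : ℝ} {P : Finset (ℝ × ℝ)} (h : ¬ ∃ m : ℕ, P.card = 2 * (m + 1)) :
    evSet ε P = ∅ := by
  rw [Finset.eq_empty_iff_forall_notMem]
  intro e he
  rw [mem_evSet] at he
  have := he.2.2.2.2.2.2
  exact h ⟨(P.filter (fun r => det3 e.1 e.2 r < 0)).card, by omega⟩

lemma sum_kap {P A : Finset (ℝ × ℝ)} (hA : A ⊆ P) :
    ∑ z ∈ P, kap A z = 2 * (P.card : ℤ) - A.card := by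
  classical
  have h1 : ∀ z ∈ P, kap A z = 2 - (if z ∈ A then 1 else 0) := by
    intro z _
    unfold kap
    split_ifs <;> norm_num
  rw [Finset.sum_congr rfl h1, Finset.sum_sub_distrib]
  have h2 : ∑ z ∈ P, (if z ∈ A then (1 : ℤ) else 0) = A.card := by
    rw [Finset.sum_ite_mem, Finset.inter_eq_right.mpr hA]
    simp
  rw [h2]
  simp
  ring

lemma kapI_le_kap (X Y : ℝ × ℝ → ℝ) (A : Finset (ℝ × ℝ)) (z : ℝ × ℝ) :
    kapI X Y A z ≤ kap A z := by
  unfold kapI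
  split_ifs
  · exact (kap_pos A z).le
  · exact le_refl _

theorem ends_le {P A : Finset (ℝ × ℝ)} (hP : NoThreeCollinear P) (hA : A ⊆ P)
    (hconv : ConvexIndependent ℝ (Subtype.val : ↥(A : Set (ℝ × ℝ)) → ℝ × ℝ)) {ε : ℝ}
    (hX : Set.InjOn (shX ε) (P : Set (ℝ × ℝ))) :
    ∑ e ∈ evSet ε P, (ind (e.1 ∈ A) + ind (e.2 ∈ A)) ≤ ∑ z ∈ P, kapI (shX ε) shY A z := by
  by_cases hm : ∃ m : ℕ, P.card = 2 * (m + 1)
  · obtain ⟨m, hm⟩ := hm
    refine degree_sum_abstract hX (gp_of_noThree hP ε) hm ?_ (evSet ε P)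
      (fun e he => isEvent_of_mem_evSet hm he)
    intro a ha
    rw [inn_iff]
    exact (convexIndependent_set_iff_notMem_convexHull_sdiff.mp hconv) a ha
  · rw [evSet_eq_empty hm]
    simp only [Finset.sum_empty]
    apply Finset.sum_nonneg
    intro z _
    unfold kapI
    split_ifs
    · exact le_refl _
    · exact (kap_pos A z).le

theorem cover_bound (P : Finset (ℝ × ℝ)) (hP : NoThreeCollinear P)
    (F : Finset (Finset (ℝ × ℝ))) (hcov : ∀ p ∈ P, ∃ A ∈ F, p ∈ A)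
    (hconv : ∀ A ∈ F, ConvexIndependent ℝ (Subtype.val : ↥(A : Set (ℝ × ℝ)) → ℝ × ℝ)) :
    2 * halvingCount P + P.card ≤ 2 * F.card * P.card := by
  classical
  obtain ⟨ε, hX⟩ := exists_shear P
  change Set.InjOn (shX ε) (P : Set (ℝ × ℝ)) at hX
  rw [← card_evSet hX]
  have key : ∀ A ∈ F, ∑ e ∈ evSet ε P, (ind (e.1 ∈ A ∩ P) + ind (e.2 ∈ A ∩ P))
      ≤ 2 * (P.card : ℤ) - (A ∩ P).card := by
    intro A hA
    have hc : ConvexIndependent ℝ
        (Subtype.val : ↥((A ∩ P : Finset (ℝ × ℝ)) : Set (ℝ × ℝ)) → ℝ × ℝ) := by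
      apply (hconv A hA).mono
      intro x hx
      exact (Finset.mem_inter.mp hx).1
    have h1 := ends_le hP (Finset.inter_subset_right : A ∩ P ⊆ P) hc hX
    have h2 : ∑ z ∈ P, kapI (shX ε) shY (A ∩ P) z ≤ ∑ z ∈ P, kap (A ∩ P) z :=
      Finset.sum_le_sum (fun z _ => kapI_le_kap _ _ _ z)
    rw [sum_kap Finset.inter_subset_right] at h2
    linarith
  have hsum := Finset.sum_le_sum key
  rw [Finset.sum_comm] at hsum
  have hlow : ∑ e ∈ evSet ε P, (2 : ℤ)
      ≤ ∑ e ∈ evSet ε P, ∑ A ∈ F, (ind (e.1 ∈ A ∩ P) + ind (e.2 ∈ A ∩ P)) := by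
    apply Finset.sum_le_sum
    intro e he
    rw [mem_evSet] at he
    obtain ⟨⟨hp, hq⟩, _, _⟩ := he
    obtain ⟨A1, hA1, hpA⟩ := hcov e.1 hp
    obtain ⟨A2, hA2, hqA⟩ := hcov e.2 hq
    rw [Finset.sum_add_distrib]
    have s1 : (1 : ℤ) ≤ ∑ A ∈ F, ind (e.1 ∈ A ∩ P) := by
      calc (1 : ℤ) = ind (e.1 ∈ A1 ∩ P) := (ind_true (Finset.mem_inter.mpr ⟨hpA, hp⟩)).symm
        _ ≤ ∑ A ∈ F, ind (e.1 ∈ A ∩ P) :=
          Finset.single_le_sum (f := fun A => ind (e.1 ∈ A ∩ P)) (fun A _ => ind_nonneg _) hA1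
    have s2 : (1 : ℤ) ≤ ∑ A ∈ F, ind (e.2 ∈ A ∩ P) := by
      calc (1 : ℤ) = ind (e.2 ∈ A2 ∩ P) := (ind_true (Finset.mem_inter.mpr ⟨hqA, hq⟩)).symm
        _ ≤ ∑ A ∈ F, ind (e.2 ∈ A ∩ P) :=
          Finset.single_le_sum (f := fun A => ind (e.2 ∈ A ∩ P)) (fun A _ => ind_nonneg _) hA2
    linarith
  have hcard : (P.card : ℤ) ≤ ∑ A ∈ F, ((A ∩ P).card : ℤ) := by
    have hsub : P ⊆ F.biUnion (fun A => A ∩ P) := by
      intro p hp
      obtain ⟨A, hA, hpA⟩ := hcov p hp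
      exact Finset.mem_biUnion.mpr ⟨A, hA, Finset.mem_inter.mpr ⟨hpA, hp⟩⟩
    have := (Finset.card_le_card hsub).trans Finset.card_biUnion_le
    exact_mod_cast this
  rw [Finset.sum_sub_distrib] at hsum
  simp only [Finset.sum_const, nsmul_eq_mul] at hsum hlow
  have : (2 * ((evSet ε P).card : ℤ) + P.card) ≤ 2 * F.card * P.card := by
    nlinarith
  exact_mod_cast this

end Vale.Agent.P065
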