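import Mathlib

namespace Vale.Agent.P065

def IsKSet (P : Finset (ℝ × ℝ)) (k : ℕ) (S : Finset (ℝ × ℝ)) : Prop :=
  S ⊆ P ∧ S.card = k ∧ ∃ a b c : ℝ, (a ≠ 0 ∨ b ≠ 0) ∧
    (∀ z ∈ S, a * z.1 + b * z.2 < c) ∧ (∀ z ∈ P \ S, c < a * z.1 + b * z.2)

open Classical in
noncomputable def kSetCount (P : Finset (ℝ × ℝ)) (k : ℕ) : ℕ :=
  (P.powerset.filter (fun S => IsKSet P k S)).card

end Vale.Agent.P065
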