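import Mathlib
import Vale.Agent.P065.Core
import Vale.Agent.P065.Hit
import Vale.Agent.P065.Weights
import Vale.Agent.P065.DegSum

namespace Vale.Agent.P065

open Finset

variable {α : Type*} [DecidableEq α]

lemma slope_flip (X Y : α → ℝ) (z w : α) :
    slope (fun a => -X a) (fun a => -Y a) z w = slope X Y w z := by
  unfold slope
  congr 1 <;> ring

lemma eta_flip (X Y : α → ℝ) (t : ℝ) (z : α) :
    eta (fun a => -X a) (fun a => -Y a) t z = - eta X Y t z := by
  unfold eta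
  ring

lemma GP_flip {X Y : α → ℝ} {P : Finset α} (h : GP X Y P) :
    GP (fun a => -X a) (fun a => -Y a) P := by
  intro p hp q hq r hr hlt he
  have hlt' : X q < X p := by simpa using hlt
  rw [slope_flip, eta_flip, eta_flip, neg_inj] at he
  rw [eta_slope hlt'] at he
  rcases h q hq p hp r hr hlt' he with h1 | h1
  · exact Or.inr h1
  · exact Or.inl h1

lemma cutPlus_of_lower {X Y : α → ℝ} {P S : Finset α} {t0 : ℝ} (hS : S ⊆ P)
    (hlow : ∀ z ∈ S, ∀ w ∈ P, w ∉ S → X z < X w)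
    (ht : ∀ z ∈ P, ∀ w ∈ P, t0 < slope X Y z w) : CutPlus X Y P t0 S := by
  refine ⟨hS, ?_⟩
  intro z hz w hw hw'
  left
  have hx := hlow z hz w hw hw'
  have h1 := ht z (hS hz) w hw
  unfold slope at h1
  rw [lt_div_iff₀ (sub_pos.mpr hx)] at h1
  unfold eta
  linarith

lemma cutMinus_of_upper {X Y : α → ℝ} {P S : Finset α} {t1 : ℝ} (hS : S ⊆ P)
    (hup : ∀ z ∈ S, ∀ w ∈ P, w ∉ S → X w < X z)
    (ht : ∀ z ∈ P, ∀ w ∈ P, slope X Y z w < t1) : CutMinus X Y P t1 S := by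
  refine ⟨hS, ?_⟩
  intro z hz w hw hw'
  left
  have hx := hup z hz w hw hw'
  have h1 := ht w hw z (hS hz)
  unfold slope at h1
  rw [div_lt_iff₀ (sub_pos.mpr hx)] at h1
  unfold eta
  linarith

lemma exists_slope_bound (X Y : α → ℝ) (P : Finset α) :
    ∃ M : ℝ, 0 ≤ M ∧ ∀ z ∈ P, ∀ w ∈ P, |slope X Y z w| ≤ M := by
  classical
  obtain ⟨M, hM⟩ := (((P ×ˢ P).image (fun e : α × α => slope X Y e.1 e.2)).image
    (fun s : ℝ => |s|)).exists_le
  refine ⟨|M|, abs_nonneg M, ?_⟩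
  intro z hz w hw
  refine le_trans (hM _ ?_) (le_abs_self M)
  refine Finset.mem_image.mpr ⟨slope X Y z w, ?_, rfl⟩
  exact Finset.mem_image.mpr ⟨(z, w), Finset.mem_product.mpr ⟨hz, hw⟩, rfl⟩

theorem ends_two_windows {X Y : α → ℝ} {P A : Finset α} {m : ℕ} (hX : Set.InjOn X P)
    (hgp : GP X Y P) (hm : m + 1 ≤ P.card) (hconv : ∀ a ∈ A, ¬ Inn X Y A a)
    (E0 E1 : Finset (α × α)) (hE0 : ∀ e ∈ E0, IsEvent X Y P m e.1 e.2)
    (hE1 : ∀ e ∈ E1, IsEvent (fun a => -X a) (fun a => -Y a) P m e.1 e.2) :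
    ∑ e ∈ E0, (ind (e.1 ∈ A) + ind (e.2 ∈ A)) + ∑ e ∈ E1, (ind (e.1 ∈ A) + ind (e.2 ∈ A))
      ≤ 2 * ∑ z ∈ P, kapI X Y A z := by
  classical
  have hX' : Set.InjOn (fun a => -X a) P := by
    intro a ha b hb hab
    exact hX ha hb (neg_inj.mp hab)
  obtain ⟨S0, hS0, hc0, hlt0⟩ := exists_lower_set X P hX (m + 1) hm
  obtain ⟨S1, hS1, hc1, hlt1⟩ := exists_lower_set (fun a => -X a) P hX' (m + 1) hm
  have hlt1' : ∀ z ∈ S1, ∀ w ∈ P, w ∉ S1 → X w < X z := by
    intro z hz w hw hw'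
    have := hlt1 z hz w hw hw'
    simpa using this
  have hlt0' : ∀ z ∈ S0, ∀ w ∈ P, w ∉ S0 → (fun a => -X a) w < (fun a => -X a) z := by
    intro z hz w hw hw'
    have := hlt0 z hz w hw hw'
    simpa using this
  obtain ⟨M, hMn, hM⟩ := exists_slope_bound X Y P
  set t1 : ℝ := M + 1 with ht1
  set t0 : ℝ := -(M + 1) with ht0
  have hs0 : ∀ z ∈ P, ∀ w ∈ P, t0 < slope X Y z w := by
    intro z hz w hw
    have := abs_le.mp (hM z hz w hw)
    linarith [this.1]
  have hs1 : ∀ z ∈ P, ∀ w ∈ P, slope X Y z w < t1 := by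
    intro z hz w hw
    have := abs_le.mp (hM z hz w hw)
    linarith [this.2]
  have hs0' : ∀ z ∈ P, ∀ w ∈ P, t0 < slope (fun a => -X a) (fun a => -Y a) z w := by
    intro z hz w hw
    rw [slope_flip]; exact hs0 w hw z hz
  have hs1' : ∀ z ∈ P, ∀ w ∈ P, slope (fun a => -X a) (fun a => -Y a) z w < t1 := by
    intro z hz w hw
    rw [slope_flip]; exact hs1 w hw z hz
  have main0 := potential_principle (X := X) (Y := Y) (P := P) (m := m)
    (u := uW X Y A) (d := dW X Y A) hgp (uW_mono X Y A) (dW_mono X Y A)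
    (fun z w => ind (z ∈ A) + ind (w ∈ A))
    (fun z w => add_nonneg (ind_nonneg _) (ind_nonneg _))
    (fun z _ w _ hx => local_ineq hconv hx) (cutPlus_of_lower hS0 hlt0 hs0) hc0 E0 hE0
    (fun e he => hs0 e.1 (hE0 e he).hp e.2 (hE0 e he).hq) t1 S1
    (cutMinus_of_upper hS1 hlt1' hs1) hc1 (by linarith)
    (fun e he => hs1 e.1 (hE0 e he).hp e.2 (hE0 e he).hq)
  have main1 := potential_principle (X := fun a => -X a) (Y := fun a => -Y a) (P := P) (m := m)
    (u := dW X Y A) (d := uW X Y A) (GP_flip hgp) (dW_mono X Y A) (uW_mono X Y A)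
    (fun z w => ind (z ∈ A) + ind (w ∈ A))
    (fun z w => add_nonneg (ind_nonneg _) (ind_nonneg _))
    (fun z _ w _ hx => by
      rw [slope_flip]
      have hx' : X w < X z := by simpa using hx
      have := local_ineq (X := X) (Y := Y) hconv hx'
      linarith)
    (cutPlus_of_lower hS1 hlt1 hs0') hc1 E1 hE1
    (fun e he => hs0' e.1 (hE1 e he).hp e.2 (hE1 e he).hq) t1 S0
    (cutMinus_of_upper hS0 hlt0' hs1') hc0 (by linarith)
    (fun e he => hs1' e.1 (hE1 e he).hp e.2 (hE1 e he).hq)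
  unfold Phi at main0 main1
  have a1 : ∑ x ∈ S1, (uW X Y A t1 x - dW X Y A t0 x) ≤ ∑ x ∈ S1, kapI X Y A x :=
    Finset.sum_le_sum (fun x _ => bound1 X Y A x t0 t1)
  have a2 : ∑ x ∈ P \ S1, (dW X Y A t1 x - uW X Y A t0 x) ≤ ∑ x ∈ P \ S1, kapI X Y A x :=
    Finset.sum_le_sum (fun x _ => bound2 X Y A x t0 t1)
  have a3 : ∑ x ∈ S0, (dW X Y A t1 x - uW X Y A t0 x) ≤ ∑ x ∈ S0, kapI X Y A x :=
    Finset.sum_le_sum (fun x _ => bound2 X Y A x t0 t1)
  have a4 : ∑ x ∈ P \ S0, (uW X Y A t1 x - dW X Y A t0 x) ≤ ∑ x ∈ P \ S0, kapI X Y A x :=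
    Finset.sum_le_sum (fun x _ => bound1 X Y A x t0 t1)
  rw [Finset.sum_sub_distrib] at a1 a2 a3 a4
  have hsplit0 := Finset.sum_sdiff (f := kapI X Y A) hS0
  have hsplit1 := Finset.sum_sdiff (f := kapI X Y A) hS1
  linarith

lemma next_event {X Y : α → ℝ} {P : Finset α} {m : ℕ} (hgp : GP X Y P) {t t' : ℝ}
    (htt : t < t') {S S' : Finset α} (h : CutPlus X Y P t S) (h' : CutMinus X Y P t' S')
    (hc : S.card = m + 1) (hc' : S'.card = m + 1) (hne : S ≠ S') :
    ∃ p q, IsEvent X Y P m p q ∧ t < slope X Y p q ∧ slope X Y p q < t' := by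
  classical
  have h1 : ¬ S ⊆ S' := fun hs => hne (Finset.eq_of_subset_of_card_le hs (by omega))
  have h2 : ¬ S' ⊆ S := fun hs => hne (Finset.eq_of_subset_of_card_le hs (by omega)).symm
  obtain ⟨z0, hz0, hz0'⟩ := Finset.not_subset.mp h1
  obtain ⟨w0, hw0, hw0'⟩ := Finset.not_subset.mp h2
  obtain ⟨hx0, hs0, hs0'⟩ := wedge htt h h' hz0 hz0' hw0 hw0'
  set D := (S ×ˢ (P \ S)).filter (fun e : α × α => X e.1 < X e.2) with hD
  have hDne : D.Nonempty := ⟨(z0, w0), by
    rw [hD, Finset.mem_filter, Finset.mem_product, Finset.mem_sdiff]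
    exact ⟨⟨hz0, h'.1 hw0, hw0'⟩, hx0⟩⟩
  obtain ⟨e, he, hmin⟩ := Finset.exists_min_image D (fun e => slope X Y e.1 e.2) hDne
  rw [hD, Finset.mem_filter, Finset.mem_product, Finset.mem_sdiff] at he
  obtain ⟨⟨hpS, hqP, hqS⟩, hpq⟩ := he
  set p := e.1 with hp
  set q := e.2 with hq
  set σ := slope X Y p q with hσ
  have hslope_gt : ∀ z ∈ S, ∀ w ∈ P, w ∉ S → X z < X w → t < slope X Y z w := by
    intro z hz w hw hw' hx
    unfold slope
    rw [lt_div_iff₀ (sub_pos.mpr hx)]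
    rcases h.2 z hz w hw hw' with h3 | ⟨_, h3⟩
    · unfold eta at h3; linarith
    · exact absurd h3 (not_lt.mpr hx.le)
  have hmin' : ∀ z ∈ S, ∀ w ∈ P, w ∉ S → X z < X w → σ ≤ slope X Y z w := by
    intro z hz w hw hw' hx
    exact hmin (z, w) (by
      rw [hD, Finset.mem_filter, Finset.mem_product, Finset.mem_sdiff]
      exact ⟨⟨hz, hw, hw'⟩, hx⟩)
  have hσt : t < σ := hslope_gt p hpS q hqP hqS hpq
  have hσt' : σ < t' := lt_of_le_of_lt (hmin' z0 hz0 w0 (h'.1 hw0) hw0' hx0) hs0'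
  have hpq_eta : eta X Y σ q = eta X Y σ p := eta_slope hpq
  have hbelow : below X Y P p q = S.erase p := by
    ext x
    simp only [below, Finset.mem_filter, Finset.mem_erase]
    constructor
    · rintro ⟨hxP, hlt⟩
      have hxp : x ≠ p := fun hh => by rw [hh] at hlt; exact lt_irrefl _ hlt
      refine ⟨hxp, ?_⟩
      by_contra hxS
      have hxq : x ≠ q := fun hh => by
        rw [hh, ← hσ, hpq_eta] at hlt; exact lt_irrefl _ hlt
      rw [← hσ] at hlt
      rcases h.2 p hpS x hxP hxS with h3 | ⟨h3, h3'⟩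
      · have hx : X p < X x := by
          unfold eta at h3 hlt
          nlinarith
        have h4 := hmin' p hpS x hxP hxS hx
        unfold slope at h4
        rw [le_div_iff₀ (sub_pos.mpr hx)] at h4
        unfold eta at hlt
        linarith
      · unfold eta at h3 hlt
        nlinarith
    · rintro ⟨hxp, hxS⟩
      refine ⟨h.1 hxS, ?_⟩
      rw [← hσ, ← hpq_eta]
      by_contra hcon
      have hcon' := not_lt.mp hcon
      rcases h.2 x hxS q hqP hqS with h3 | ⟨h3, h3'⟩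
      · have hx : X x < X q := by
          unfold eta at h3 hcon'
          nlinarith
        have h4 := hmin' x hxS q hqP hqS hx
        have h5 : eta X Y σ x = eta X Y σ q := by
          apply le_antisymm _ hcon'
          unfold slope at h4
          rw [le_div_iff₀ (sub_pos.mpr hx)] at h4
          unfold eta
          linarith
        rw [hpq_eta] at h5
        rcases hgp p (h.1 hpS) q hqP x (h.1 hxS) hpq h5 with h6 | h6
        · exact hxp h6
        · exact hqS (h6 ▸ hxS)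
      · unfold eta at h3 hcon'
        nlinarith
  refine ⟨p, q, ⟨h.1 hpS, hqP, hpq, ?_⟩, hσt, hσt'⟩
  rw [hbelow, Finset.card_erase_of_mem hpS, hc]
  rfl

lemma cut_start_or_event {X Y : α → ℝ} {P : Finset α} {m : ℕ} (hgp : GP X Y P)
    {S0 : Finset α} (hS0 : S0 ⊆ P) (hc0 : S0.card = m + 1)
    (hlow : ∀ z ∈ S0, ∀ w ∈ P, w ∉ S0 → X z < X w)
    {t' : ℝ} {S' : Finset α} (h' : CutMinus X Y P t' S') (hc' : S'.card = m + 1) :
    S' = S0 ∨ ∃ p q, IsEvent X Y P m p q ∧ S' = insert q (below X Y P p q) := by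
  classical
  set Ev := (P ×ˢ P).filter (fun e : α × α => IsEvent X Y P m e.1 e.2 ∧ slope X Y e.1 e.2 < t')
    with hEv
  rcases Ev.eq_empty_or_nonempty with hemp | hne
  · left
    by_contra hcon
    obtain ⟨M, hMn, hM⟩ := exists_slope_bound X Y P
    have hs0 : ∀ z ∈ P, ∀ w ∈ P, min (-(M + 1)) (t' - 1) < slope X Y z w := by
      intro z hz w hw
      have := abs_le.mp (hM z hz w hw)
      exact lt_of_le_of_lt (min_le_left _ _) (by linarith [this.1])
    obtain ⟨p, q, hev, _, h2⟩ := next_event hgp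
      (lt_of_le_of_lt (min_le_right _ _) (by linarith : t' - 1 < t'))
      (cutPlus_of_lower hS0 hlow hs0) h' hc0 hc' (fun hh => hcon hh.symm)
    have : (p, q) ∈ Ev := by
      rw [hEv, Finset.mem_filter, Finset.mem_product]
      exact ⟨⟨hev.hp, hev.hq⟩, hev, h2⟩
    rw [hemp] at this
    exact absurd this (Finset.notMem_empty _)
  · right
    obtain ⟨e, he, hmax⟩ := Finset.exists_max_image Ev (fun e => slope X Y e.1 e.2) hne
    rw [hEv, Finset.mem_filter] at he
    obtain ⟨_, hev, hlt⟩ := he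
    refine ⟨e.1, e.2, hev, ?_⟩
    by_contra hcon
    obtain ⟨p, q, hev', h1, h2⟩ := next_event hgp hlt (cutPlus_event hgp hev) h'
      (card_insert_right hev) hc' (fun hh => hcon hh.symm)
    have hmem : (p, q) ∈ Ev := by
      rw [hEv, Finset.mem_filter, Finset.mem_product]
      exact ⟨⟨hev'.hp, hev'.hq⟩, hev', h2⟩
    have := hmax (p, q) hmem
    simp only at this
    linarith

lemma upper_is_event {X Y : α → ℝ} {P : Finset α} {m : ℕ} (hgp : GP X Y P)
    (hX : Set.InjOn X P) (hm : m + 1 < P.card) {S : Finset α} (hS : S ⊆ P)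
    (hc : S.card = m + 1) (hup : ∀ z ∈ S, ∀ w ∈ P, w ∉ S → X w < X z) :
    ∃ p q, IsEvent X Y P m p q ∧ S = insert q (below X Y P p q) := by
  classical
  obtain ⟨S0, hS0, hc0, hlt0⟩ := exists_lower_set X P hX (m + 1) hm.le
  obtain ⟨M, hMn, hM⟩ := exists_slope_bound X Y P
  have hs1 : ∀ z ∈ P, ∀ w ∈ P, slope X Y z w < M + 1 := by
    intro z hz w hw
    have := abs_le.mp (hM z hz w hw)
    linarith [this.2]
  rcases cut_start_or_event hgp hS0 hc0 hlt0 (cutMinus_of_upper hS hup hs1) hc with h | h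
  · exfalso
    have hne : S.Nonempty := by rw [← Finset.card_pos]; omega
    have hne' : (P \ S).Nonempty := by
      rw [← Finset.card_pos, Finset.card_sdiff_of_subset hS]; omega
    obtain ⟨z, hz⟩ := hne
    obtain ⟨w, hw⟩ := hne'
    rw [Finset.mem_sdiff] at hw
    have h1 := hup z hz w hw.1 hw.2
    have h2 := hlt0 z (h ▸ hz) w hw.1 (h ▸ hw.2)
    linarith
  · exact h

lemma cut_lower_or_event {X Y : α → ℝ} {P : Finset α} {m : ℕ} (hgp : GP X Y P)
    (hX : Set.InjOn X P) (hm : m + 1 ≤ P.card) {t' : ℝ} {S' : Finset α}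
    (h' : CutMinus X Y P t' S') (hc' : S'.card = m + 1) :
    (∀ z ∈ S', ∀ w ∈ P, w ∉ S' → X z < X w) ∨
      ∃ p q, IsEvent X Y P m p q ∧ S' = insert q (below X Y P p q) := by
  obtain ⟨S0, hS0, hc0, hlt0⟩ := exists_lower_set X P hX (m + 1) hm
  rcases cut_start_or_event hgp hS0 hc0 hlt0 h' hc' with h | h
  · left; rw [h]; exact hlt0
  · right; exact h

end Vale.Agent.P065
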