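import Mathlib
import Vale.Agent.P065.Defs
import Vale.Agent.P065.KDefs
import Vale.Agent.P065.Bridge
import Vale.Agent.P065.NextEvent

namespace Vale.Agent.P065

open Finset

noncomputable def rightOf (P : Finset (ℝ × ℝ)) (p q : ℝ × ℝ) : Finset (ℝ × ℝ) :=
  P.filter (fun r => det3 p q r < 0)

open Classical in
noncomputable def jEdges (P : Finset (ℝ × ℝ)) (m : ℕ) : Finset ((ℝ × ℝ) × (ℝ × ℝ)) :=
  (P ×ˢ P).filter (fun e => e.1 ≠ e.2 ∧ (rightOf P e.1 e.2).card = m)

lemma mem_jEdges {P : Finset (ℝ × ℝ)} {m : ℕ} {e : (ℝ × ℝ) × (ℝ × ℝ)} :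
    e ∈ jEdges P m ↔ (e.1 ∈ P ∧ e.2 ∈ P) ∧ e.1 ≠ e.2 ∧ (rightOf P e.1 e.2).card = m := by
  unfold jEdges
  simp only [Finset.mem_filter, Finset.mem_product]

lemma below_eq_rightOf (ε : ℝ) (P : Finset (ℝ × ℝ)) {p q : ℝ × ℝ} (h : shX ε p < shX ε q) :
    below (shX ε) shY P p q = rightOf P p q := by
  unfold below rightOf
  apply Finset.filter_congr
  intro r _
  exact eta_lt_iff ε r h

lemma below_flip_eq_rightOf (ε : ℝ) (P : Finset (ℝ × ℝ)) {p q : ℝ × ℝ}
    (h : shX ε q < shX ε p) :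
    below (fun a => -shX ε a) (fun a => -shY a) P p q = rightOf P p q := by
  unfold below rightOf
  apply Finset.filter_congr
  intro r _
  rw [slope_flip, eta_flip, eta_flip, neg_lt_neg_iff, eta_slope h, ← sub_pos,
    eta_sub_eq ε r h, det3_swap]
  have h0 : 0 < shX ε p - shX ε q := sub_pos.mpr h
  rw [div_pos_iff]
  constructor
  · rintro (⟨h1, _⟩ | ⟨_, h2⟩)
    · linarith
    · linarith
  · intro h1
    exact Or.inl ⟨by linarith, h0⟩

lemma isEvent_iff (ε : ℝ) (P : Finset (ℝ × ℝ)) (m : ℕ) {p q : ℝ × ℝ}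
    (h : shX ε p < shX ε q) :
    IsEvent (shX ε) shY P m p q ↔ (p, q) ∈ jEdges P m := by
  rw [mem_jEdges]
  constructor
  · intro e
    refine ⟨⟨e.hp, e.hq⟩, fun hh => by
      have hh' : p = q := hh
      rw [hh'] at h; exact lt_irrefl _ h, ?_⟩
    rw [← below_eq_rightOf ε P h]; exact e.hcard
  · rintro ⟨⟨hp, hq⟩, _, hc⟩
    exact ⟨hp, hq, h, by rw [below_eq_rightOf ε P h]; exact hc⟩

lemma isEvent_flip_iff (ε : ℝ) (P : Finset (ℝ × ℝ)) (m : ℕ) {p q : ℝ × ℝ}
    (h : shX ε q < shX ε p) :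
    IsEvent (fun a => -shX ε a) (fun a => -shY a) P m p q ↔ (p, q) ∈ jEdges P m := by
  rw [mem_jEdges]
  constructor
  · intro e
    refine ⟨⟨e.hp, e.hq⟩, fun hh => by
      have hh' : p = q := hh
      rw [hh'] at h; exact lt_irrefl _ h, ?_⟩
    rw [← below_flip_eq_rightOf ε P h]; exact e.hcard
  · rintro ⟨⟨hp, hq⟩, _, hc⟩
    exact ⟨hp, hq, by simpa using h, by rw [below_flip_eq_rightOf ε P h]; exact hc⟩

theorem jEdge_ends_le {P A : Finset (ℝ × ℝ)} (hP : NoThreeCollinear P) {m : ℕ}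
    (hm : m + 1 ≤ P.card)
    (hconv : ConvexIndependent ℝ (Subtype.val : ↥(A : Set (ℝ × ℝ)) → ℝ × ℝ)) {ε : ℝ}
    (hX : Set.InjOn (shX ε) (P : Set (ℝ × ℝ))) :
    ∑ e ∈ jEdges P m, (ind (e.1 ∈ A) + ind (e.2 ∈ A))
      ≤ 2 * ∑ z ∈ P, kapI (shX ε) shY A z := by
  classical
  set E0 := (jEdges P m).filter (fun e => shX ε e.1 < shX ε e.2) with hE0
  set E1 := (jEdges P m).filter (fun e => ¬ shX ε e.1 < shX ε e.2) with hE1
  have hsplit := Finset.sum_filter_add_sum_filter_not (jEdges P m)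
    (fun e => shX ε e.1 < shX ε e.2) (fun e => ind (e.1 ∈ A) + ind (e.2 ∈ A))
  rw [← hsplit]
  refine ends_two_windows hX (gp_of_noThree hP ε) hm ?_ E0 E1 ?_ ?_
  · intro a ha
    rw [inn_iff]
    exact (convexIndependent_set_iff_notMem_convexHull_sdiff.mp hconv) a ha
  · intro e he
    rw [hE0, Finset.mem_filter] at he
    exact (isEvent_iff ε P m he.2).mpr he.1
  · intro e he
    rw [hE1, Finset.mem_filter] at he
    have hmem := mem_jEdges.mp he.1
    have hne : shX ε e.1 ≠ shX ε e.2 := fun hh => hmem.2.1 (hX hmem.1.1 hmem.1.2 hh)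
    have hlt : shX ε e.2 < shX ε e.1 := lt_of_le_of_ne (not_lt.mp he.2) (Ne.symm hne)
    exact (isEvent_flip_iff ε P m hlt).mpr he.1

theorem jEdges_cover_bound (P : Finset (ℝ × ℝ)) (hP : NoThreeCollinear P)
    (F : Finset (Finset (ℝ × ℝ))) (hcov : ∀ p ∈ P, ∃ A ∈ F, p ∈ A)
    (hconv : ∀ A ∈ F, ConvexIndependent ℝ (Subtype.val : ↥(A : Set (ℝ × ℝ)) → ℝ × ℝ))
    (m : ℕ) (hm : m + 1 ≤ P.card) :
    (jEdges P m).card + P.card ≤ 2 * F.card * P.card := by
  classical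
  obtain ⟨ε, hX⟩ := exists_shear P
  change Set.InjOn (shX ε) (P : Set (ℝ × ℝ)) at hX
  have key : ∀ A ∈ F, ∑ e ∈ jEdges P m, (ind (e.1 ∈ A ∩ P) + ind (e.2 ∈ A ∩ P))
      ≤ 2 * (2 * (P.card : ℤ) - (A ∩ P).card) := by
    intro A hA
    have hc : ConvexIndependent ℝ
        (Subtype.val : ↥((A ∩ P : Finset (ℝ × ℝ)) : Set (ℝ × ℝ)) → ℝ × ℝ) := by
      apply (hconv A hA).mono
      intro x hx
      exact (Finset.mem_inter.mp hx).1
    have h1 := jEdge_ends_le hP hm hc hX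
    have h2 : ∑ z ∈ P, kapI (shX ε) shY (A ∩ P) z ≤ ∑ z ∈ P, kap (A ∩ P) z :=
      Finset.sum_le_sum (fun z _ => kapI_le_kap _ _ _ z)
    rw [sum_kap Finset.inter_subset_right] at h2
    linarith
  have hsum := Finset.sum_le_sum key
  rw [Finset.sum_comm] at hsum
  have hlow : ∑ e ∈ jEdges P m, (2 : ℤ)
      ≤ ∑ e ∈ jEdges P m, ∑ A ∈ F, (ind (e.1 ∈ A ∩ P) + ind (e.2 ∈ A ∩ P)) := by
    apply Finset.sum_le_sum
    intro e he
    rw [mem_jEdges] at he
    obtain ⟨⟨hp, hq⟩, _, _⟩ := he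
    obtain ⟨A1, hA1, hpA⟩ := hcov e.1 hp
    obtain ⟨A2, hA2, hqA⟩ := hcov e.2 hq
    rw [Finset.sum_add_distrib]
    have s1 : (1 : ℤ) ≤ ∑ A ∈ F, ind (e.1 ∈ A ∩ P) := by
      calc (1 : ℤ) = ind (e.1 ∈ A1 ∩ P) := (ind_true (Finset.mem_inter.mpr ⟨hpA, hp⟩)).symm
        _ ≤ ∑ A ∈ F, ind (e.1 ∈ A ∩ P) :=
          Finset.single_le_sum (f := fun A => ind (e.1 ∈ A ∩ P)) (fun A _ => ind_nonneg _) hA1
    have s2 : (1 : ℤ) ≤ ∑ A ∈ F, ind (e.2 ∈ A ∩ P) := by
      calc (1 : ℤ) = ind (e.2 ∈ A2 ∩ P) := (ind_true (Finset.mem_inter.mpr ⟨hqA, hq⟩)).symm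
        _ ≤ ∑ A ∈ F, ind (e.2 ∈ A ∩ P) :=
          Finset.single_le_sum (f := fun A => ind (e.2 ∈ A ∩ P)) (fun A _ => ind_nonneg _) hA2
    linarith
  have hcard : (P.card : ℤ) ≤ ∑ A ∈ F, ((A ∩ P).card : ℤ) := by
    have hsub : P ⊆ F.biUnion (fun A => A ∩ P) := by
      intro p hp
      obtain ⟨A, hA, hpA⟩ := hcov p hp
      exact Finset.mem_biUnion.mpr ⟨A, hA, Finset.mem_inter.mpr ⟨hpA, hp⟩⟩
    have := (Finset.card_le_card hsub).trans Finset.card_biUnion_le
    exact_mod_cast this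
  rw [← Finset.mul_sum, Finset.sum_sub_distrib] at hsum
  simp only [Finset.sum_const, nsmul_eq_mul] at hsum hlow
  have : (((jEdges P m).card : ℤ) + P.card) ≤ 2 * F.card * P.card := by
    nlinarith
  exact_mod_cast this

lemma kset_is_T {P : Finset (ℝ × ℝ)} (hP : NoThreeCollinear P) {m : ℕ} (hm : m + 1 < P.card)
    {S : Finset (ℝ × ℝ)} (hS : IsKSet P (m + 1) S) :
    ∃ e ∈ jEdges P m, S = insert e.2 (rightOf P e.1 e.2) := by
  classical
  obtain ⟨ε, hX⟩ := exists_shear P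
  change Set.InjOn (shX ε) (P : Set (ℝ × ℝ)) at hX
  have hX' : Set.InjOn (fun a => -shX ε a) (P : Set (ℝ × ℝ)) := by
    intro a ha b hb hab
    exact hX ha hb (neg_inj.mp hab)
  have hgp := gp_of_noThree hP ε
  have hgp' := GP_flip hgp
  obtain ⟨hSP, hc, a, b, c, hab, hin, hout⟩ := hS
  have ev0 : (∃ p q, IsEvent (shX ε) shY P m p q ∧ S = insert q (below (shX ε) shY P p q)) →
      ∃ e ∈ jEdges P m, S = insert e.2 (rightOf P e.1 e.2) := by
    rintro ⟨p, q, hev, hS⟩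
    refine ⟨(p, q), (isEvent_iff ε P m hev.hlt).mp hev, ?_⟩
    rw [hS, below_eq_rightOf ε P hev.hlt]
  have ev1 : (∃ p q, IsEvent (fun a => -shX ε a) (fun a => -shY a) P m p q ∧
      S = insert q (below (fun a => -shX ε a) (fun a => -shY a) P p q)) →
      ∃ e ∈ jEdges P m, S = insert e.2 (rightOf P e.1 e.2) := by
    rintro ⟨p, q, hev, hS⟩
    have hlt : shX ε q < shX ε p := by simpa using hev.hlt
    refine ⟨(p, q), (isEvent_flip_iff ε P m hlt).mp hev, ?_⟩
    rw [hS, below_flip_eq_rightOf ε P hlt]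
  have upper : (∀ z ∈ S, ∀ w ∈ P, w ∉ S → shX ε w < shX ε z) →
      ∃ e ∈ jEdges P m, S = insert e.2 (rightOf P e.1 e.2) := fun h =>
    ev0 (upper_is_event hgp hX hm hSP hc h)
  have lower : (∀ z ∈ S, ∀ w ∈ P, w ∉ S → shX ε z < shX ε w) →
      ∃ e ∈ jEdges P m, S = insert e.2 (rightOf P e.1 e.2) := fun h =>
    ev1 (upper_is_event hgp' hX' hm hSP hc (fun z hz w hw hw' => by
      have := h z hz w hw hw'
      simpa using this))
  have hlin : ∀ z : ℝ × ℝ, a * z.1 + b * z.2 = a * shX ε z + (b - a * ε) * shY z := by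
    intro z; unfold shX shY; ring
  rcases lt_trichotomy (b - a * ε) 0 with hb | hb | hb
  · have hcut : CutMinus (fun a => -shX ε a) (fun a => -shY a) P (-a / (b - a * ε)) S := by
      refine ⟨hSP, ?_⟩
      intro z hz w hw hw'
      left
      rw [eta_flip, eta_flip, neg_lt_neg_iff]
      have h1 := hin z hz
      have h2 := hout w (Finset.mem_sdiff.mpr ⟨hw, hw'⟩)
      rw [hlin] at h1 h2
      have e1 : ∀ x : ℝ × ℝ, eta (shX ε) shY (-a / (b - a * ε)) x
          = (a * shX ε x + (b - a * ε) * shY x) / (b - a * ε) := by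
        intro x
        have hb0 : b - a * ε ≠ 0 := hb.ne
        unfold eta
        field_simp
        ring
      rw [e1, e1]
      exact (div_lt_div_right_of_neg hb).mpr (by linarith)
    rcases cut_lower_or_event hgp' hX' hm.le hcut hc with h | h
    · exact upper (fun z hz w hw hw' => by
        have := h z hz w hw hw'
        simpa using this)
    · exact ev1 h
  · have ha : a ≠ 0 := by
      intro ha
      rcases hab with h | h
      · exact h ha
      · apply h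
        rw [ha] at hb
        linarith
    rcases lt_or_gt_of_ne ha with ha' | ha'
    · apply upper
      intro z hz w hw hw'
      have h1 := hin z hz
      have h2 := hout w (Finset.mem_sdiff.mpr ⟨hw, hw'⟩)
      rw [hlin, hb] at h1 h2
      nlinarith
    · apply lower
      intro z hz w hw hw'
      have h1 := hin z hz
      have h2 := hout w (Finset.mem_sdiff.mpr ⟨hw, hw'⟩)
      rw [hlin, hb] at h1 h2
      nlinarith
  · have hcut : CutMinus (shX ε) shY P (-a / (b - a * ε)) S := by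
      refine ⟨hSP, ?_⟩
      intro z hz w hw hw'
      left
      have h1 := hin z hz
      have h2 := hout w (Finset.mem_sdiff.mpr ⟨hw, hw'⟩)
      rw [hlin] at h1 h2
      have e1 : ∀ x : ℝ × ℝ, eta (shX ε) shY (-a / (b - a * ε)) x
          = (a * shX ε x + (b - a * ε) * shY x) / (b - a * ε) := by
        intro x
        have hb0 : b - a * ε ≠ 0 := hb.ne'
        unfold eta
        field_simp
        ring
      rw [e1, e1]
      exact div_lt_div_of_pos_right (by linarith) hb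
    rcases cut_lower_or_event hgp hX hm.le hcut hc with h | h
    · exact lower h
    · exact ev0 h

theorem kSetCount_le_jEdges {P : Finset (ℝ × ℝ)} (hP : NoThreeCollinear P) {m : ℕ}
    (hm : m + 1 < P.card) : kSetCount P (m + 1) ≤ (jEdges P m).card := by
  classical
  unfold kSetCount
  calc (P.powerset.filter (fun S => IsKSet P (m + 1) S)).card
      ≤ ((jEdges P m).image (fun e => insert e.2 (rightOf P e.1 e.2))).card := by
        apply Finset.card_le_card
        intro S hS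
        rw [Finset.mem_filter] at hS
        obtain ⟨e, he, hSe⟩ := kset_is_T hP hm hS.2
        exact Finset.mem_image.mpr ⟨e, he, hSe.symm⟩
    _ ≤ (jEdges P m).card := Finset.card_image_le

theorem kset_cover_bound (P : Finset (ℝ × ℝ)) (hP : NoThreeCollinear P)
    (F : Finset (Finset (ℝ × ℝ))) (hcov : ∀ p ∈ P, ∃ A ∈ F, p ∈ A)
    (hconv : ∀ A ∈ F, ConvexIndependent ℝ (Subtype.val : ↥(A : Set (ℝ × ℝ)) → ℝ × ℝ))
    (k : ℕ) (hk1 : 1 ≤ k) (hk2 : k < P.card) :
    kSetCount P k + P.card ≤ 2 * F.card * P.card := by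
  obtain ⟨m, rfl⟩ : ∃ m, k = m + 1 := ⟨k - 1, by omega⟩
  have h1 := kSetCount_le_jEdges hP hk2
  have h2 := jEdges_cover_bound P hP F hcov hconv m hk2.le
  omega

end Vale.Agent.P065
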